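import Crest.Agent.Helper65.Switch.Classes

/-!
# S0453: Johnson structure of the classes of a pair `{a, b}` (WP-B)

For `a ≠ b` and a base graph `G0`:
* `freeSet G0 a b` : the vertices `u ∉ {a,b}` adjacent to exactly one of `a`, `b`;
* `toSet G0 a b G` : the free vertices adjacent to `a` in `G` (the Johnson coordinate);
* `ofSet G0 a b A` : `G0` rewired so that the free vertices in `A` are joined to `a`, the other
  free vertices to `b`.
(helper65)
-/

set_option autoImplicit false

namespace Crest.Agent.Helper65.Switch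

open Finset Crest.SwitchChain

variable {n : ℕ}

/-- Extensionality for graphs relative to a pair `{a, b}`. -/
lemma ext_adj_pair {G G' : Finset (Edge n)} {a b : Fin n}
    (h1 : ∀ x y, x ≠ a → x ≠ b → y ≠ a → y ≠ b → (adj G x y ↔ adj G' x y))
    (h2 : adj G a b ↔ adj G' a b)
    (h3 : ∀ u, u ≠ a → u ≠ b → (adj G a u ↔ adj G' a u))
    (h4 : ∀ u, u ≠ a → u ≠ b → (adj G b u ↔ adj G' b u)) : G = G' := by
  refine ext_adj fun x y => ?_
  by_cases hxa : x = a
  · subst hxa
    by_cases hya : y = x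
    · subst hya
      exact ⟨fun hh => absurd hh not_adj_self, fun hh => absurd hh not_adj_self⟩
    · by_cases hyb : y = b
      · subst hyb; exact h2
      · exact h3 y hya hyb
  · by_cases hxb : x = b
    · subst hxb
      by_cases hya : y = a
      · subst hya
        rw [adj_comm, adj_comm (G := G')]; exact h2
      · by_cases hyb : y = x
        · subst hyb
          exact ⟨fun hh => absurd hh not_adj_self, fun hh => absurd hh not_adj_self⟩
        · exact h4 y hya hyb
    · by_cases hya : y = a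
      · subst hya
        rw [adj_comm, adj_comm (G := G')]; exact h3 x hxa hxb
      · by_cases hyb : y = b
        · subst hyb
          rw [adj_comm, adj_comm (G := G')]; exact h4 x hxa hxb
        · exact h1 x y hxa hxb hya hyb

/-- The free set of the pair `a, b` at `G`. -/
noncomputable def freeSet (G : Finset (Edge n)) (a b : Fin n) : Finset (Fin n) := by
  classical exact univ.filter fun u => u ≠ a ∧ u ≠ b ∧ (adj G a u ↔ ¬ adj G b u)

lemma mem_freeSet {G : Finset (Edge n)} {a b u : Fin n} :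
    u ∈ freeSet G a b ↔ u ≠ a ∧ u ≠ b ∧ (adj G a u ↔ ¬ adj G b u) := by
  classical
  unfold freeSet
  rw [Finset.mem_filter]
  simp only [Finset.mem_univ, true_and]

/-- The Johnson coordinate of `G` relative to the base graph `G0`. -/
noncomputable def toSet (G0 : Finset (Edge n)) (a b : Fin n) (G : Finset (Edge n)) :
    Finset (Fin n) := by
  classical exact (freeSet G0 a b).filter fun u => adj G a u

lemma mem_toSet {G0 G : Finset (Edge n)} {a b u : Fin n} :
    u ∈ toSet G0 a b G ↔ u ∈ freeSet G0 a b ∧ adj G a u := by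
  classical
  unfold toSet
  rw [Finset.mem_filter]

lemma toSet_subset (G0 G : Finset (Edge n)) (a b : Fin n) :
    toSet G0 a b G ⊆ freeSet G0 a b := fun _ hu => (mem_toSet.1 hu).1

/-- The one-sided adjacency pattern of the rewired graph. -/
def pairQ (G0 : Finset (Edge n)) (a b : Fin n) (A : Finset (Fin n)) (x y : Fin n) : Prop :=
  (x = a ∧ y ∈ A) ∨ (x = b ∧ y ∈ freeSet G0 a b ∧ y ∉ A) ∨
    (adj G0 x y ∧ ¬ ((x = a ∨ x = b) ∧ y ∈ freeSet G0 a b) ∧
      ¬ ((y = a ∨ y = b) ∧ x ∈ freeSet G0 a b))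

/-- `G0` rewired along `A`: free vertices in `A` are joined to `a`, the others to `b`. -/
noncomputable def ofSet (G0 : Finset (Edge n)) (a b : Fin n) (A : Finset (Fin n)) :
    Finset (Edge n) :=
  ofAdj fun x y => pairQ G0 a b A x y ∨ pairQ G0 a b A y x

lemma adj_ofSet {G0 : Finset (Edge n)} {a b : Fin n} {A : Finset (Fin n)} {x y : Fin n} :
    adj (ofSet G0 a b A) x y ↔ x ≠ y ∧ (pairQ G0 a b A x y ∨ pairQ G0 a b A y x) := by
  unfold ofSet
  exact adj_ofAdj (fun x y h => h.symm)

section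
variable {G0 : Finset (Edge n)} {a b : Fin n} {A : Finset (Fin n)}

lemma adj_ofSet_off (x y : Fin n) (hxa : x ≠ a) (hxb : x ≠ b) (hya : y ≠ a) (hyb : y ≠ b) :
    adj (ofSet G0 a b A) x y ↔ adj G0 x y := by
  rw [adj_ofSet]
  have hc := @adj_comm n G0 x y
  have hne : adj G0 x y → x ≠ y := adj.ne
  unfold pairQ
  tauto

lemma adj_ofSet_ab (hab : a ≠ b) (hA : A ⊆ freeSet G0 a b) :
    adj (ofSet G0 a b A) a b ↔ adj G0 a b := by
  rw [adj_ofSet]
  have hc := @adj_comm n G0 a b
  have haD : a ∉ freeSet G0 a b := fun h => (mem_freeSet.1 h).1 rfl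
  have hbD : b ∉ freeSet G0 a b := fun h => (mem_freeSet.1 h).2.1 rfl
  have haA : a ∉ A := fun h => haD (hA h)
  have hbA : b ∉ A := fun h => hbD (hA h)
  have hba : b ≠ a := hab.symm
  have haa : a = a := rfl
  have hbb : b = b := rfl
  unfold pairQ
  tauto

lemma adj_ofSet_a (hab : a ≠ b) (hA : A ⊆ freeSet G0 a b) (u : Fin n) (hua : u ≠ a)
    (hub : u ≠ b) :
    adj (ofSet G0 a b A) a u ↔ u ∈ A ∨ (u ∉ freeSet G0 a b ∧ adj G0 a u) := by
  rw [adj_ofSet]
  have hc := @adj_comm n G0 a u
  have haD : a ∉ freeSet G0 a b := fun h => (mem_freeSet.1 h).1 rfl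
  have haA : a ∉ A := fun h => haD (hA h)
  have hAD : u ∈ A → u ∈ freeSet G0 a b := fun h => hA h
  have hau : a ≠ u := fun h => hua h.symm
  have hba : b ≠ a := hab.symm
  have haa : a = a := rfl
  unfold pairQ
  tauto

lemma adj_ofSet_b (hab : a ≠ b) (hA : A ⊆ freeSet G0 a b) (u : Fin n) (hua : u ≠ a)
    (hub : u ≠ b) :
    adj (ofSet G0 a b A) b u ↔
      (u ∈ freeSet G0 a b ∧ u ∉ A) ∨ (u ∉ freeSet G0 a b ∧ adj G0 b u) := by
  rw [adj_ofSet]
  have hc := @adj_comm n G0 b u
  have hbD : b ∉ freeSet G0 a b := fun h => (mem_freeSet.1 h).2.1 rfl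
  have hbA : b ∉ A := fun h => hbD (hA h)
  have hAD : u ∈ A → u ∈ freeSet G0 a b := fun h => hA h
  have hbu : b ≠ u := fun h => hub h.symm
  have hba : b ≠ a := hab.symm
  have hbb : b = b := rfl
  unfold pairQ
  tauto

end

/-! ### degrees of the rewired graph -/

instance adjDecidable (G : Finset (Edge n)) (x y : Fin n) : Decidable (adj G x y) :=
  if h : x = y then isFalse (fun hh => hh.1 h)
  else decidable_of_iff (mkE x y h ∈ G) (adj_iff h).symm

lemma card_nb_inter_pair {a b : Fin n} (hab : a ≠ b) (G : Finset (Edge n)) (v : Fin n) :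
    (nb G v ∩ {a, b}).card =
      (if adj G a v then 1 else 0) + (if adj G b v then 1 else 0) := by
  classical
  by_cases ha : adj G a v <;> by_cases hb : adj G b v
  · have : nb G v ∩ {a, b} = {a, b} := by
      ext w
      simp only [mem_inter, mem_nb, mem_insert, mem_singleton]
      constructor
      · exact fun h => h.2
      · rintro (rfl | rfl)
        · exact ⟨adj_comm.1 ha, Or.inl rfl⟩
        · exact ⟨adj_comm.1 hb, Or.inr rfl⟩
    rw [this, Finset.card_pair hab, if_pos ha, if_pos hb]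
  · have : nb G v ∩ {a, b} = {a} := by
      ext w
      simp only [mem_inter, mem_nb, mem_insert, mem_singleton]
      constructor
      · rintro ⟨h, rfl | rfl⟩
        · rfl
        · exact absurd (adj_comm.1 h) hb
      · rintro rfl
        exact ⟨adj_comm.1 ha, Or.inl rfl⟩
    rw [this, Finset.card_singleton, if_pos ha, if_neg hb]
  · have : nb G v ∩ {a, b} = {b} := by
      ext w
      simp only [mem_inter, mem_nb, mem_insert, mem_singleton]
      constructor
      · rintro ⟨h, rfl | rfl⟩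
        · exact absurd (adj_comm.1 h) ha
        · rfl
      · rintro rfl
        exact ⟨adj_comm.1 hb, Or.inr rfl⟩
    rw [this, Finset.card_singleton, if_neg ha, if_pos hb]
  · have : nb G v ∩ {a, b} = ∅ := by
      ext w
      simp only [mem_inter, mem_nb, mem_insert, mem_singleton, Finset.notMem_empty, iff_false]
      rintro ⟨h, rfl | rfl⟩
      · exact ha (adj_comm.1 h)
      · exact hb (adj_comm.1 h)
    rw [this, Finset.card_empty, if_neg ha, if_neg hb]

section
variable {G0 : Finset (Edge n)} {a b : Fin n} {A : Finset (Fin n)}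

lemma nb_ofSet_a (hab : a ≠ b) (hA : A ⊆ freeSet G0 a b) :
    nb (ofSet G0 a b A) a = (nb G0 a \ freeSet G0 a b) ∪ A := by
  classical
  ext w
  rw [mem_nb, Finset.mem_union, Finset.mem_sdiff, mem_nb]
  by_cases hwa : w = a
  · subst hwa
    have haD : w ∉ freeSet G0 w b := fun h => (mem_freeSet.1 h).1 rfl
    constructor
    · intro h; exact absurd h not_adj_self
    · rintro (⟨h, -⟩ | h)
      · exact absurd h not_adj_self
      · exact absurd (hA h) haD
  · by_cases hwb : w = b
    · subst hwb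
      have hbD : w ∉ freeSet G0 a w := fun h => (mem_freeSet.1 h).2.1 rfl
      rw [adj_ofSet_ab hab hA]
      constructor
      · intro h; exact Or.inl ⟨h, hbD⟩
      · rintro (⟨h, -⟩ | h)
        · exact h
        · exact absurd (hA h) hbD
    · rw [adj_ofSet_a hab hA w hwa hwb]
      tauto

lemma nb_ofSet_b (hab : a ≠ b) (hA : A ⊆ freeSet G0 a b) :
    nb (ofSet G0 a b A) b = (nb G0 b \ freeSet G0 a b) ∪ (freeSet G0 a b \ A) := by
  classical
  ext w
  rw [mem_nb, Finset.mem_union, Finset.mem_sdiff, mem_nb, Finset.mem_sdiff]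
  by_cases hwb : w = b
  · subst hwb
    have hbD : w ∉ freeSet G0 a w := fun h => (mem_freeSet.1 h).2.1 rfl
    constructor
    · intro h; exact absurd h not_adj_self
    · rintro (⟨h, -⟩ | ⟨h, -⟩)
      · exact absurd h not_adj_self
      · exact absurd h hbD
  · by_cases hwa : w = a
    · subst hwa
      have haD : w ∉ freeSet G0 w b := fun h => (mem_freeSet.1 h).1 rfl
      rw [adj_comm, adj_ofSet_ab hab hA, adj_comm]
      constructor
      · intro h; exact Or.inl ⟨h, haD⟩
      · rintro (⟨h, -⟩ | ⟨h, -⟩)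
        · exact h
        · exact absurd h haD
    · rw [adj_ofSet_b hab hA w hwa hwb]
      tauto

lemma nb_inter_freeSet_a (G0 : Finset (Edge n)) (a b : Fin n) (G : Finset (Edge n)) :
    nb G a ∩ freeSet G0 a b = toSet G0 a b G := by
  classical
  ext w
  rw [Finset.mem_inter, mem_nb, mem_toSet]
  tauto

lemma nb_inter_freeSet_b (G0 : Finset (Edge n)) (a b : Fin n) :
    nb G0 b ∩ freeSet G0 a b = freeSet G0 a b \ toSet G0 a b G0 := by
  classical
  ext w
  rw [Finset.mem_inter, mem_nb, Finset.mem_sdiff, mem_toSet]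
  constructor
  · rintro ⟨h1, h2⟩
    exact ⟨h2, fun h3 => ((mem_freeSet.1 h2).2.2.1 h3.2) h1⟩
  · rintro ⟨h1, h2⟩
    refine ⟨?_, h1⟩
    by_contra h3
    exact h2 ⟨h1, (mem_freeSet.1 h1).2.2.2 h3⟩

lemma card_nb_ofSet_a (hab : a ≠ b) (hA : A ⊆ freeSet G0 a b)
    (hcard : A.card = (toSet G0 a b G0).card) :
    (nb (ofSet G0 a b A) a).card = (nb G0 a).card := by
  classical
  rw [nb_ofSet_a hab hA, Finset.card_union_of_disjoint
    (Finset.disjoint_of_subset_right hA Finset.sdiff_disjoint), hcard,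
    ← nb_inter_freeSet_a G0 a b G0, Finset.card_sdiff_add_card_inter]

lemma card_nb_ofSet_b (hab : a ≠ b) (hA : A ⊆ freeSet G0 a b)
    (hcard : A.card = (toSet G0 a b G0).card) :
    (nb (ofSet G0 a b A) b).card = (nb G0 b).card := by
  classical
  have hdisj : Disjoint (nb G0 b \ freeSet G0 a b) (freeSet G0 a b \ A) :=
    Finset.disjoint_of_subset_right Finset.sdiff_subset Finset.sdiff_disjoint
  rw [nb_ofSet_b hab hA, Finset.card_union_of_disjoint hdisj]
  have h1 := Finset.card_sdiff_add_card_inter (nb G0 b) (freeSet G0 a b)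
  rw [nb_inter_freeSet_b G0 a b] at h1
  have h2 := Finset.card_sdiff_add_card_eq_card hA
  have h3 := Finset.card_sdiff_add_card_eq_card (toSet_subset G0 G0 a b)
  omega

lemma card_nb_ofSet_other (hab : a ≠ b) (hA : A ⊆ freeSet G0 a b) (v : Fin n) (hva : v ≠ a)
    (hvb : v ≠ b) : (nb (ofSet G0 a b A) v).card = (nb G0 v).card := by
  classical
  have h1 : nb (ofSet G0 a b A) v \ {a, b} = nb G0 v \ {a, b} := by
    ext w
    simp only [mem_sdiff, mem_nb, mem_insert, mem_singleton, not_or]
    constructor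
    · rintro ⟨h, hwa, hwb⟩
      exact ⟨(adj_ofSet_off v w hva hvb hwa hwb).1 h, hwa, hwb⟩
    · rintro ⟨h, hwa, hwb⟩
      exact ⟨(adj_ofSet_off v w hva hvb hwa hwb).2 h, hwa, hwb⟩
  have h2 : (nb (ofSet G0 a b A) v ∩ {a, b}).card = (nb G0 v ∩ {a, b}).card := by
    rw [card_nb_inter_pair hab, card_nb_inter_pair hab]
    have e1 := adj_ofSet_a hab hA v hva hvb
    have e2 := adj_ofSet_b hab hA v hva hvb
    have e3 : v ∈ freeSet G0 a b ↔ (adj G0 a v ↔ ¬ adj G0 b v) := by
      rw [mem_freeSet]; tauto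
    have e4 : v ∈ A → v ∈ freeSet G0 a b := fun h => hA h
    by_cases p1 : adj (ofSet G0 a b A) a v <;> by_cases p2 : adj (ofSet G0 a b A) b v <;>
      by_cases q1 : adj G0 a v <;> by_cases q2 : adj G0 b v <;>
      simp only [p1, p2, q1, q2, if_true, if_false] <;>
      first
        | rfl
        | (exfalso; tauto)
  have e1 := Finset.card_sdiff_add_card_inter (nb (ofSet G0 a b A) v) {a, b}
  have e2 := Finset.card_sdiff_add_card_inter (nb G0 v) {a, b}
  rw [h1, h2] at e1
  omega

lemma ofSet_mem_realizations {d : Fin n → ℕ} (hG0 : G0 ∈ realizations d) (hab : a ≠ b)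
    (hA : A ⊆ freeSet G0 a b) (hcard : A.card = (toSet G0 a b G0).card) :
    ofSet G0 a b A ∈ realizations d := by
  rw [mem_realizations] at hG0 ⊢
  intro v
  rw [deg_eq_card_nb, ← hG0 v, deg_eq_card_nb]
  by_cases hva : v = a
  · subst hva; exact card_nb_ofSet_a hab hA hcard
  · by_cases hvb : v = b
    · subst hvb; exact card_nb_ofSet_b hab hA hcard
    · exact card_nb_ofSet_other hab hA v hva hvb

lemma offU_ofSet (G0 : Finset (Edge n)) (a b : Fin n) (A : Finset (Fin n)) :
    offU {a, b} (ofSet G0 a b A) = offU {a, b} G0 := by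
  rw [offU_eq_iff]
  intro x y hx hy
  simp only [mem_insert, mem_singleton, not_or] at hx hy
  exact adj_ofSet_off x y hx.1 hx.2 hy.1 hy.2

lemma ofSet_mem_cls {d : Fin n → ℕ} (hG0 : G0 ∈ realizations d) (hab : a ≠ b)
    (hA : A ⊆ freeSet G0 a b) (hcard : A.card = (toSet G0 a b G0).card) :
    ofSet G0 a b A ∈ cls d {a, b} G0 :=
  mem_cls.2 ⟨ofSet_mem_realizations hG0 hab hA hcard, offU_ofSet G0 a b A⟩

lemma toSet_ofSet (hab : a ≠ b) (hA : A ⊆ freeSet G0 a b) :
    toSet G0 a b (ofSet G0 a b A) = A := by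
  ext u
  rw [mem_toSet]
  constructor
  · rintro ⟨hD, h⟩
    have hu := mem_freeSet.1 hD
    rcases (adj_ofSet_a hab hA u hu.1 hu.2.1).1 h with h' | h'
    · exact h'
    · exact absurd hD h'.1
  · intro h
    have hD := hA h
    have hu := mem_freeSet.1 hD
    exact ⟨hD, (adj_ofSet_a hab hA u hu.1 hu.2.1).2 (Or.inl h)⟩

end

/-! ### the members of a class -/

section
variable {d : Fin n → ℕ} {G0 G : Finset (Edge n)} {a b : Fin n}

lemma adj_of_mem_cls (hG : G ∈ cls d {a, b} G0) (x y : Fin n) (hxa : x ≠ a) (hxb : x ≠ b)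
    (hya : y ≠ a) (hyb : y ≠ b) : adj G x y ↔ adj G0 x y :=
  offU_eq_iff.1 (mem_cls.1 hG).2 x y (by simp [hxa, hxb]) (by simp [hya, hyb])

lemma count_pair_of_mem_cls (hG0 : G0 ∈ realizations d) (hab : a ≠ b)
    (hG : G ∈ cls d {a, b} G0) (v : Fin n) (hva : v ≠ a) (hvb : v ≠ b) :
    (if adj G a v then 1 else 0) + (if adj G b v then 1 else 0) =
      (if adj G0 a v then 1 else 0) + (if adj G0 b v then 1 else 0) := by
  classical
  rw [← card_nb_inter_pair hab, ← card_nb_inter_pair hab]
  have h1 : nb G v \ {a, b} = nb G0 v \ {a, b} := by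
    ext w
    simp only [mem_sdiff, mem_nb, mem_insert, mem_singleton, not_or]
    constructor
    · rintro ⟨h, hwa, hwb⟩
      exact ⟨(adj_of_mem_cls hG v w hva hvb hwa hwb).1 h, hwa, hwb⟩
    · rintro ⟨h, hwa, hwb⟩
      exact ⟨(adj_of_mem_cls hG v w hva hvb hwa hwb).2 h, hwa, hwb⟩
  have hdeg : (nb G v).card = (nb G0 v).card := by
    rw [← deg_eq_card_nb, ← deg_eq_card_nb, mem_realizations.1 (mem_cls.1 hG).1 v,
      mem_realizations.1 hG0 v]
  have e1 := Finset.card_sdiff_add_card_inter (nb G v) {a, b}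
  have e2 := Finset.card_sdiff_add_card_inter (nb G0 v) {a, b}
  rw [h1] at e1
  omega

lemma freeSet_of_mem_cls (hG0 : G0 ∈ realizations d) (hab : a ≠ b)
    (hG : G ∈ cls d {a, b} G0) : freeSet G a b = freeSet G0 a b := by
  ext v
  rw [mem_freeSet, mem_freeSet]
  by_cases hva : v = a
  · exact ⟨fun h => absurd hva h.1, fun h => absurd hva h.1⟩
  · by_cases hvb : v = b
    · exact ⟨fun h => absurd hvb h.2.1, fun h => absurd hvb h.2.1⟩
    · have key := count_pair_of_mem_cls hG0 hab hG v hva hvb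
      by_cases p1 : adj G a v <;> by_cases p2 : adj G b v <;>
        by_cases q1 : adj G0 a v <;> by_cases q2 : adj G0 b v <;>
        simp only [p1, p2, q1, q2, if_true, if_false] at key <;>
        first
          | (exfalso; omega)
          | tauto

lemma adj_off_free_of_mem_cls (hG0 : G0 ∈ realizations d) (hab : a ≠ b)
    (hG : G ∈ cls d {a, b} G0) (v : Fin n) (hva : v ≠ a) (hvb : v ≠ b)
    (hvD : v ∉ freeSet G0 a b) : (adj G a v ↔ adj G0 a v) ∧ (adj G b v ↔ adj G0 b v) := by
  have key := count_pair_of_mem_cls hG0 hab hG v hva hvb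
  have hD : ¬ (adj G0 a v ↔ ¬ adj G0 b v) := fun h => hvD (mem_freeSet.2 ⟨hva, hvb, h⟩)
  by_cases p1 : adj G a v <;> by_cases p2 : adj G b v <;>
    by_cases q1 : adj G0 a v <;> by_cases q2 : adj G0 b v <;>
    simp only [p1, p2, q1, q2, if_true, if_false] at key <;>
    first
      | (exfalso; omega)
      | tauto

end

/-- decomposition of the neighbourhood of `a`. -/
lemma card_nb_a_decomp (G0 X : Finset (Edge n)) (a b : Fin n)
    (hX : ∀ v, v ≠ a → v ≠ b → v ∉ freeSet G0 a b → (adj X a v ↔ adj G0 a v)) :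
    (nb X a).card = (if adj X a b then 1 else 0) + (toSet G0 a b X).card +
      ((nb G0 a \ freeSet G0 a b).erase b).card := by
  classical
  have h1 := Finset.card_sdiff_add_card_inter (nb X a) (freeSet G0 a b)
  rw [nb_inter_freeSet_a] at h1
  have hbD : b ∉ freeSet G0 a b := fun h => (mem_freeSet.1 h).2.1 rfl
  have h2 : (nb X a \ freeSet G0 a b).erase b = (nb G0 a \ freeSet G0 a b).erase b := by
    ext v
    simp only [mem_erase, mem_sdiff, mem_nb]
    constructor
    · rintro ⟨hvb, h, hvD⟩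
      have hva : v ≠ a := fun hh => h.1 hh.symm
      exact ⟨hvb, (hX v hva hvb hvD).1 h, hvD⟩
    · rintro ⟨hvb, h, hvD⟩
      have hva : v ≠ a := fun hh => h.1 hh.symm
      exact ⟨hvb, (hX v hva hvb hvD).2 h, hvD⟩
  by_cases hab' : adj X a b
  · have hb : b ∈ nb X a \ freeSet G0 a b := by
      rw [mem_sdiff, mem_nb]; exact ⟨hab', hbD⟩
    have h3 := Finset.card_erase_add_one hb
    rw [h2] at h3
    rw [if_pos hab']
    omega
  · have hb : b ∉ nb X a \ freeSet G0 a b := by
      rw [mem_sdiff, mem_nb]; exact fun h => hab' h.1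
    have h3 := Finset.erase_eq_of_notMem hb
    rw [h2] at h3
    rw [if_neg hab', h3]
    omega

/-- decomposition of the neighbourhood of `b` (additive form). -/
lemma card_nb_b_decomp (G0 X : Finset (Edge n)) (a b : Fin n)
    (hX : ∀ v, v ≠ a → v ≠ b → v ∉ freeSet G0 a b → (adj X b v ↔ adj G0 b v))
    (hD : ∀ v ∈ freeSet G0 a b, (adj X b v ↔ ¬ adj X a v)) :
    (nb X b).card + (toSet G0 a b X).card = (if adj X a b then 1 else 0) +
      (freeSet G0 a b).card + ((nb G0 b \ freeSet G0 a b).erase a).card := by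
  classical
  have h1 := Finset.card_sdiff_add_card_inter (nb X b) (freeSet G0 a b)
  have h1' : nb X b ∩ freeSet G0 a b = freeSet G0 a b \ toSet G0 a b X := by
    ext w
    rw [Finset.mem_inter, mem_nb, Finset.mem_sdiff, mem_toSet]
    constructor
    · rintro ⟨h1, h2⟩
      exact ⟨h2, fun h3 => ((hD w h2).1 h1) h3.2⟩
    · rintro ⟨h1, h2⟩
      refine ⟨(hD w h1).2 fun h3 => h2 ⟨h1, h3⟩, h1⟩
  rw [h1'] at h1
  have h4 := Finset.card_sdiff_add_card_eq_card (toSet_subset G0 X a b)
  have haD : a ∉ freeSet G0 a b := fun h => (mem_freeSet.1 h).1 rfl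
  have h2 : (nb X b \ freeSet G0 a b).erase a = (nb G0 b \ freeSet G0 a b).erase a := by
    ext v
    simp only [mem_erase, mem_sdiff, mem_nb]
    constructor
    · rintro ⟨hva, h, hvD⟩
      have hvb : v ≠ b := fun hh => h.1 hh.symm
      exact ⟨hva, (hX v hva hvb hvD).1 h, hvD⟩
    · rintro ⟨hva, h, hvD⟩
      have hvb : v ≠ b := fun hh => h.1 hh.symm
      exact ⟨hva, (hX v hva hvb hvD).2 h, hvD⟩
  by_cases hab' : adj X a b
  · have ha : a ∈ nb X b \ freeSet G0 a b := by
      rw [mem_sdiff, mem_nb]; exact ⟨adj_comm.1 hab', haD⟩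
    have h3 := Finset.card_erase_add_one ha
    rw [h2] at h3
    rw [if_pos hab']
    omega
  · have ha : a ∉ nb X b \ freeSet G0 a b := by
      rw [mem_sdiff, mem_nb]; exact fun h => hab' (adj_comm.1 h.1)
    have h3 := Finset.erase_eq_of_notMem ha
    rw [h2] at h3
    rw [if_neg hab', h3]
    omega

section
variable {d : Fin n → ℕ} {G0 G : Finset (Edge n)} {a b : Fin n}

lemma adj_ab_of_mem_cls (hG0 : G0 ∈ realizations d) (hab : a ≠ b)
    (hG : G ∈ cls d {a, b} G0) :
    (adj G a b ↔ adj G0 a b) ∧ (toSet G0 a b G).card = (toSet G0 a b G0).card := by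
  have hF := freeSet_of_mem_cls hG0 hab hG
  have hXa : ∀ v, v ≠ a → v ≠ b → v ∉ freeSet G0 a b → (adj G a v ↔ adj G0 a v) :=
    fun v h1 h2 h3 => (adj_off_free_of_mem_cls hG0 hab hG v h1 h2 h3).1
  have hXb : ∀ v, v ≠ a → v ≠ b → v ∉ freeSet G0 a b → (adj G b v ↔ adj G0 b v) :=
    fun v h1 h2 h3 => (adj_off_free_of_mem_cls hG0 hab hG v h1 h2 h3).2
  have hDG : ∀ v ∈ freeSet G0 a b, (adj G b v ↔ ¬ adj G a v) := by
    intro v hv
    rw [← hF] at hv
    have := (mem_freeSet.1 hv).2.2
    tauto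
  have hDG0 : ∀ v ∈ freeSet G0 a b, (adj G0 b v ↔ ¬ adj G0 a v) := by
    intro v hv
    have := (mem_freeSet.1 hv).2.2
    tauto
  have a1 := card_nb_a_decomp G0 G a b hXa
  have a2 := card_nb_a_decomp G0 G0 a b (fun _ _ _ _ => Iff.rfl)
  have b1 := card_nb_b_decomp G0 G a b hXb hDG
  have b2 := card_nb_b_decomp G0 G0 a b (fun _ _ _ _ => Iff.rfl) hDG0
  have da : (nb G a).card = (nb G0 a).card := by
    rw [← deg_eq_card_nb, ← deg_eq_card_nb, mem_realizations.1 (mem_cls.1 hG).1 a,
      mem_realizations.1 hG0 a]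
  have db : (nb G b).card = (nb G0 b).card := by
    rw [← deg_eq_card_nb, ← deg_eq_card_nb, mem_realizations.1 (mem_cls.1 hG).1 b,
      mem_realizations.1 hG0 b]
  by_cases p : adj G a b <;> by_cases q : adj G0 a b <;>
    simp only [p, q, if_true, if_false] at a1 a2 b1 b2 <;>
    first
      | (exfalso; omega)
      | exact ⟨by tauto, by omega⟩

lemma toSet_mem_powersetCard (hG0 : G0 ∈ realizations d) (hab : a ≠ b)
    (hG : G ∈ cls d {a, b} G0) :
    toSet G0 a b G ∈ (freeSet G0 a b).powersetCard (toSet G0 a b G0).card :=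
  Finset.mem_powersetCard.2 ⟨toSet_subset G0 G a b, (adj_ab_of_mem_cls hG0 hab hG).2⟩

/-- a class member is the rewiring of the base graph along its Johnson coordinate. -/
lemma eq_ofSet_of_mem_cls (hG0 : G0 ∈ realizations d) (hab : a ≠ b)
    (hG : G ∈ cls d {a, b} G0) : ofSet G0 a b (toSet G0 a b G) = G := by
  have hA := toSet_subset G0 G a b
  have hF := freeSet_of_mem_cls hG0 hab hG
  symm
  refine ext_adj_pair (a := a) (b := b) ?_ ?_ ?_ ?_
  · intro x y hxa hxb hya hyb
    rw [adj_ofSet_off x y hxa hxb hya hyb]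
    exact adj_of_mem_cls hG x y hxa hxb hya hyb
  · rw [adj_ofSet_ab hab hA]
    exact (adj_ab_of_mem_cls hG0 hab hG).1
  · intro u hua hub
    rw [adj_ofSet_a hab hA u hua hub, mem_toSet]
    by_cases hD : u ∈ freeSet G0 a b
    · tauto
    · have := (adj_off_free_of_mem_cls hG0 hab hG u hua hub hD).1
      tauto
  · intro u hua hub
    rw [adj_ofSet_b hab hA u hua hub, mem_toSet]
    by_cases hD : u ∈ freeSet G0 a b
    · have h1 : adj G a u ↔ ¬ adj G b u := by
        have hD' : u ∈ freeSet G a b := by rw [hF]; exact hD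
        exact (mem_freeSet.1 hD').2.2
      tauto
    · have := (adj_off_free_of_mem_cls hG0 hab hG u hua hub hD).2
      tauto

end

/-! ### Johnson exchanges are switches -/

lemma adj_switch {G : Finset (Edge n)} {p q r s : Fin n} (hpq : p ≠ q) (hpr : p ≠ r)
    (hqs : q ≠ s) (hrs : r ≠ s) {x y : Fin n} (hxy : x ≠ y) :
    adj (G \ pm2 p q r s hpq hrs ∪ pm2 p r q s hpr hqs) x y ↔
      (adj G x y ∧ ¬ ((x = p ∧ y = q) ∨ (x = q ∧ y = p)) ∧
          ¬ ((x = r ∧ y = s) ∨ (x = s ∧ y = r))) ∨
        ((x = p ∧ y = r) ∨ (x = r ∧ y = p)) ∨ ((x = q ∧ y = s) ∨ (x = s ∧ y = q)) := by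
  rw [adj_iff hxy, mem_switch, adj_iff hxy]
  simp only [mkE_eq_iff, Ne]

section
variable {G0 : Finset (Edge n)} {a b : Fin n} {A : Finset (Fin n)}

lemma isSwitch_ofSet_exchange (hab : a ≠ b) (hA : A ⊆ freeSet G0 a b) {u w : Fin n}
    (hu : u ∈ A) (hw : w ∈ freeSet G0 a b) (hwA : w ∉ A) :
    IsSwitch (ofSet G0 a b A) (ofSet G0 a b (insert w (A.erase u))) := by
  classical
  have huD := hA hu
  obtain ⟨hua, hub, -⟩ := mem_freeSet.1 huD
  obtain ⟨hwa, hwb, -⟩ := mem_freeSet.1 hw
  have huw : u ≠ w := by rintro rfl; exact hwA hu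
  have hA' : insert w (A.erase u) ⊆ freeSet G0 a b := by
    intro v hv
    rw [mem_insert, mem_erase] at hv
    rcases hv with rfl | ⟨-, hv⟩
    · exact hw
    · exact hA hv
  have hau : a ≠ u := fun h => hua h.symm
  have haw : a ≠ w := fun h => hwa h.symm
  have hbu : b ≠ u := fun h => hub h.symm
  have hbw : b ≠ w := fun h => hwb h.symm
  have hba : b ≠ a := hab.symm
  have h1 : pm2 a u w b hau hwb ⊆ ofSet G0 a b A := by
    intro e he
    simp only [pm2, mem_insert, mem_singleton] at he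
    rcases he with rfl | rfl
    · exact (adj_iff hau).1 ((adj_ofSet_a hab hA u hua hub).2 (Or.inl hu))
    · rw [mkE_comm]
      exact (adj_iff hbw).1 ((adj_ofSet_b hab hA w hwa hwb).2 (Or.inl ⟨hw, hwA⟩))
  have h2 : Disjoint (pm2 a w u b haw hub) (ofSet G0 a b A) := by
    rw [Finset.disjoint_left]
    intro e he
    simp only [pm2, mem_insert, mem_singleton] at he
    rcases he with rfl | rfl
    · intro hh
      rcases (adj_ofSet_a hab hA w hwa hwb).1 ((adj_iff haw).2 hh) with h | h
      · exact hwA h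
      · exact h.1 hw
    · intro hh
      rw [mkE_comm] at hh
      rcases (adj_ofSet_b hab hA u hua hub).1 ((adj_iff hbu).2 hh) with h | h
      · exact h.2 hu
      · exact h.1 huD
  have hsw := isSwitch_pm2 hau haw hab huw hub hwb h1 h2
  have heq : ofSet G0 a b (insert w (A.erase u)) =
      ofSet G0 a b A \ pm2 a u w b hau hwb ∪ pm2 a w u b haw hub := by
    refine ext_adj_pair (a := a) (b := b) ?_ ?_ ?_ ?_
    · intro x y hxa hxb hya hyb
      rw [adj_ofSet_off x y hxa hxb hya hyb]
      by_cases hxy : x = y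
      · subst hxy
        exact ⟨fun hh => absurd hh not_adj_self, fun hh => absurd hh not_adj_self⟩
      · rw [adj_switch hau haw hub hwb hxy, adj_ofSet_off x y hxa hxb hya hyb]
        tauto
    · rw [adj_ofSet_ab hab hA', adj_switch hau haw hub hwb hab, adj_ofSet_ab hab hA]
      tauto
    · intro v hva hvb
      have hav : a ≠ v := fun h => hva h.symm
      rw [adj_ofSet_a hab hA' v hva hvb, adj_switch hau haw hub hwb hav,
        adj_ofSet_a hab hA v hva hvb, mem_insert, mem_erase]
      have f1 : v = u → v ∈ freeSet G0 a b := by rintro rfl; exact huD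
      have haa : a = a := rfl
      tauto
    · intro v hva hvb
      have hbv : b ≠ v := fun h => hvb h.symm
      rw [adj_ofSet_b hab hA' v hva hvb, adj_switch hau haw hub hwb hbv,
        adj_ofSet_b hab hA v hva hvb, mem_insert, mem_erase]
      have f1 : v = u → v ∈ freeSet G0 a b := by rintro rfl; exact huD
      have f2 : v = w → v ∈ freeSet G0 a b := by rintro rfl; exact hw
      have f3 : v = u → v ≠ w := by rintro rfl; exact huw
      have hbb : b = b := rfl
      tauto
  rw [heq]
  exact hsw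

end

end Crest.Agent.Helper65.Switch
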