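import Crest.Agent.Helper65.Switch.Glue

/-!
# S0453: the classes `~_U` and the averaging operators (shared model layer)

For a vertex set `U`, two graphs are `~_U`-equivalent when they have the same edges among those
not touching `U`.  Shared definitions (helper68's shapes, adopted verbatim):

* `offU U G`   : the part of `G` not touching `U` (the class key);
* `cls d U G`  : the `~_U`-class of `G` inside `realizations d`;
* `Qavg d U f`, `Rop d U f` : the class average and `f - Qavg`.

API: `offU_eq_iff` (adjacency form), `mem_cls`, `mem_cls_self`, `cls_eq_of_mem`,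
`cls_subset_of_subset`; the rewiring primitive `ofAdj` with `adj_ofAdj`, `ext_adj`;
`IsSwitch.exists_pm2` (normal form of a switch) and `switch_diagonals` (a switch edge lies in the
classes of at most two pairs).  (helper65)
-/

set_option autoImplicit false

namespace Crest.Agent.Helper65.Switch

open Finset Crest.SwitchChain

variable {n : ℕ}

/-! ### graphs with prescribed adjacency -/

/-- The graph with a prescribed adjacency relation (meant for symmetric `P`). -/
noncomputable def ofAdj (P : Fin n → Fin n → Prop) : Finset (Edge n) := by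
  classical exact univ.filter fun e : Edge n => ∃ x y, ∃ h : x ≠ y, e = mkE x y h ∧ P x y

lemma adj_ofAdj {P : Fin n → Fin n → Prop} (hP : ∀ x y, P x y → P y x) {x y : Fin n} :
    adj (ofAdj P) x y ↔ x ≠ y ∧ P x y := by
  classical
  constructor
  · rintro ⟨h, hm⟩
    unfold ofAdj at hm
    rw [Finset.mem_filter] at hm
    obtain ⟨-, x', y', h', he, hp⟩ := hm
    rw [mkE_eq_iff] at he
    rcases he with ⟨rfl, rfl⟩ | ⟨rfl, rfl⟩
    · exact ⟨h, hp⟩
    · exact ⟨h, hP _ _ hp⟩
  · rintro ⟨h, hp⟩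
    refine ⟨h, ?_⟩
    unfold ofAdj
    rw [Finset.mem_filter]
    exact ⟨Finset.mem_univ _, x, y, h, rfl, hp⟩

lemma ext_adj {G G' : Finset (Edge n)} (h : ∀ x y, adj G x y ↔ adj G' x y) : G = G' := by
  ext e
  obtain ⟨x, y, hxy, rfl⟩ := exists_eq_mkE e
  rw [← adj_iff hxy, ← adj_iff hxy]
  exact h x y

/-! ### classes -/

/-- The part of `G` not touching `U`: the key of the class `~_U`. -/
def offU (U : Finset (Fin n)) (G : Finset (Edge n)) : Finset (Edge n) :=
  G.filter (fun e => ∀ v ∈ U, v ∉ e.1)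

/-- The `~_U`-class of `G` inside the realizations of `d`. -/
def cls (d : Fin n → ℕ) (U : Finset (Fin n)) (G : Finset (Edge n)) :
    Finset (Finset (Edge n)) :=
  (realizations d).filter (fun G' => offU U G' = offU U G)

/-- The average of `f` over the `~_U`-class. -/
noncomputable def Qavg (d : Fin n → ℕ) (U : Finset (Fin n)) (f : Finset (Edge n) → ℝ)
    (G : Finset (Edge n)) : ℝ :=
  (∑ G' ∈ cls d U G, f G') / (cls d U G).card

/-- `R_U = I - Q_U`. -/
noncomputable def Rop (d : Fin n → ℕ) (U : Finset (Fin n)) (f : Finset (Edge n) → ℝ)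
    (G : Finset (Edge n)) : ℝ :=
  f G - Qavg d U f G

lemma mem_offU {U : Finset (Fin n)} {G : Finset (Edge n)} {e : Edge n} :
    e ∈ offU U G ↔ e ∈ G ∧ ∀ v ∈ U, v ∉ e.1 := Finset.mem_filter

lemma mkE_mem_offU {U : Finset (Fin n)} {G : Finset (Edge n)} {x y : Fin n} (hxy : x ≠ y) :
    mkE x y hxy ∈ offU U G ↔ mkE x y hxy ∈ G ∧ x ∉ U ∧ y ∉ U := by
  rw [mem_offU]
  constructor
  · rintro ⟨hm, hU⟩
    exact ⟨hm, fun hx => hU x hx (by simp), fun hy => hU y hy (by simp)⟩
  · rintro ⟨hm, hx, hy⟩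
    refine ⟨hm, fun v hv hve => ?_⟩
    rw [mem_mkE] at hve
    rcases hve with rfl | rfl
    · exact hx hv
    · exact hy hv

/-- Adjacency form of the class relation. -/
lemma offU_eq_iff {U : Finset (Fin n)} {G G' : Finset (Edge n)} :
    offU U G' = offU U G ↔ ∀ x y, x ∉ U → y ∉ U → (adj G' x y ↔ adj G x y) := by
  constructor
  · intro h x y hx hy
    by_cases hxy : x = y
    · subst hxy
      exact ⟨fun hh => absurd hh not_adj_self, fun hh => absurd hh not_adj_self⟩
    · rw [adj_iff hxy, adj_iff hxy]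
      have key : ∀ H : Finset (Edge n), mkE x y hxy ∈ H ↔ mkE x y hxy ∈ offU U H := by
        intro H
        rw [mkE_mem_offU]
        exact ⟨fun hm => ⟨hm, hx, hy⟩, fun hm => hm.1⟩
      rw [key G', key G, h]
  · intro h
    ext e
    obtain ⟨x, y, hxy, rfl⟩ := exists_eq_mkE e
    rw [mkE_mem_offU, mkE_mem_offU]
    constructor
    · rintro ⟨hm, hx, hy⟩
      exact ⟨(adj_iff hxy).1 ((h x y hx hy).1 ((adj_iff hxy).2 hm)), hx, hy⟩
    · rintro ⟨hm, hx, hy⟩
      exact ⟨(adj_iff hxy).1 ((h x y hx hy).2 ((adj_iff hxy).2 hm)), hx, hy⟩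

lemma offU_mono {U U' : Finset (Fin n)} (hU : U ⊆ U') {G G' : Finset (Edge n)}
    (h : offU U G' = offU U G) : offU U' G' = offU U' G := by
  rw [offU_eq_iff] at h ⊢
  exact fun x y hx hy => h x y (fun hh => hx (hU hh)) (fun hh => hy (hU hh))

lemma mem_cls {d : Fin n → ℕ} {U : Finset (Fin n)} {G G' : Finset (Edge n)} :
    G' ∈ cls d U G ↔ G' ∈ realizations d ∧ offU U G' = offU U G := Finset.mem_filter

lemma mem_cls_self {d : Fin n → ℕ} {U : Finset (Fin n)} {G : Finset (Edge n)}
    (hG : G ∈ realizations d) : G ∈ cls d U G := mem_cls.2 ⟨hG, rfl⟩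

lemma cls_eq_of_mem {d : Fin n → ℕ} {U : Finset (Fin n)} {G G' : Finset (Edge n)}
    (h : G' ∈ cls d U G) : cls d U G' = cls d U G := by
  ext H
  rw [mem_cls, mem_cls, (mem_cls.1 h).2]

lemma cls_subset_of_subset {d : Fin n → ℕ} {U U' : Finset (Fin n)} (hU : U ⊆ U')
    (G : Finset (Edge n)) : cls d U G ⊆ cls d U' G := by
  intro H hH
  rw [mem_cls] at hH ⊢
  exact ⟨hH.1, offU_mono hU hH.2⟩

lemma cls_subset_realizations {d : Fin n → ℕ} {U : Finset (Fin n)} (G : Finset (Edge n)) :
    cls d U G ⊆ realizations d := Finset.filter_subset _ _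

lemma Qavg_def (d : Fin n → ℕ) (U : Finset (Fin n)) (f : Finset (Edge n) → ℝ)
    (G : Finset (Edge n)) :
    Qavg d U f G = (∑ G' ∈ cls d U G, f G') / (cls d U G).card := rfl

lemma Rop_def (d : Fin n → ℕ) (U : Finset (Fin n)) (f : Finset (Edge n) → ℝ)
    (G : Finset (Edge n)) : Rop d U f G = f G - Qavg d U f G := rfl

/-- `Qavg` is constant on classes. -/
lemma Qavg_eq_of_mem {d : Fin n → ℕ} {U : Finset (Fin n)} (f : Finset (Edge n) → ℝ)
    {G G' : Finset (Edge n)} (h : G' ∈ cls d U G) : Qavg d U f G' = Qavg d U f G := by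
  rw [Qavg_def, Qavg_def, cls_eq_of_mem h]

/-! ### switches and classes -/

lemma pm2_comm_right (x y z w : Fin n) (hxy : x ≠ y) (hzw : z ≠ w) :
    pm2 x y z w hxy hzw = pm2 x y w z hxy hzw.symm := by
  unfold pm2
  rw [mkE_comm z w]

/-- Normal form of a switch: `G' = G - pq - rs + pr + qs`. -/
lemma IsSwitch.exists_pm2 {G G' : Finset (Edge n)} (h : IsSwitch G G') :
    ∃ (p q r s : Fin n) (hpq : p ≠ q) (hpr : p ≠ r) (_ : p ≠ s) (_ : q ≠ r) (hqs : q ≠ s)
      (hrs : r ≠ s), pm2 p q r s hpq hrs ⊆ G ∧ Disjoint (pm2 p r q s hpr hqs) G ∧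
        G' = G \ pm2 p q r s hpq hrs ∪ pm2 p r q s hpr hqs := by
  obtain ⟨S, hS, F, hF, F', hF', hne, h1, h2, hG'⟩ := h
  obtain ⟨x, y, z, w, hxy, hxz, hxw, hyz, hyw, hzw, rfl⟩ :=
    Finset.card_eq_four.1 (Finset.mem_powersetCard.1 hS).2
  rw [pm_form hxy hxz hxw hyz hyw hzw] at hF hF'
  have e1 := pm2_comm_right x y z w hxy hzw
  have e2 := pm2_comm_right x z y w hxz hyw
  have e3 := pm2_comm_right x w y z hxw hyz
  rcases hF with rfl | rfl | rfl <;> rcases hF' with rfl | rfl | rfl
  · exact absurd rfl hne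
  · exact ⟨x, y, z, w, hxy, hxz, hxw, hyz, hyw, hzw, h1, h2, hG'⟩
  · rw [e1] at h1 hG'
    exact ⟨x, y, w, z, hxy, hxw, hxz, hyw, hyz, hzw.symm, h1, h2, hG'⟩
  · exact ⟨x, z, y, w, hxz, hxy, hxw, hyz.symm, hzw, hyw, h1, h2, hG'⟩
  · exact absurd rfl hne
  · rw [e2] at h1 hG'
    rw [e3] at h2 hG'
    exact ⟨x, z, w, y, hxz, hxw, hxy, hzw, hyz.symm, hyw.symm, h1, h2, hG'⟩
  · rw [e1] at h2 hG'
    exact ⟨x, w, y, z, hxw, hxy, hxz, hyw.symm, hzw.symm, hyz, h1, h2, hG'⟩
  · rw [e3] at h1 hG'
    rw [e2] at h2 hG'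
    exact ⟨x, w, z, y, hxw, hxz, hxy, hzw.symm, hyw.symm, hyz.symm, h1, h2, hG'⟩
  · exact absurd rfl hne

/-- A switch edge lies in the classes of at most two pairs (its two diagonals). -/
lemma switch_diagonals {G G' : Finset (Edge n)} (h : IsSwitch G G') :
    (((univ : Finset (Fin n)).powersetCard 2).filter
      (fun U => offU U G' = offU U G)).card ≤ 2 := by
  obtain ⟨p, q, r, s, hpq, hpr, hps, hqr, hqs, hrs, h1, h2, rfl⟩ := h.exists_pm2
  have hsub : ((univ : Finset (Fin n)).powersetCard 2).filter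
      (fun U => offU U (G \ pm2 p q r s hpq hrs ∪ pm2 p r q s hpr hqs) = offU U G) ⊆
      {{p, s}, {q, r}} := by
    intro U hU
    rw [Finset.mem_filter, Finset.mem_powersetCard, offU_eq_iff] at hU
    obtain ⟨⟨-, hcard⟩, hU⟩ := hU
    have a1 : mkE p q hpq ∈ G := h1 (by simp [pm2])
    have a2 : mkE r s hrs ∈ G := h1 (by simp [pm2])
    have b1 : mkE p r hpr ∉ G := fun hh =>
      Finset.disjoint_left.1 h2 (by simp [pm2]) hh
    have b2 : mkE q s hqs ∉ G := fun hh =>
      Finset.disjoint_left.1 h2 (by simp [pm2]) hh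
    have c1 : p ∈ U ∨ q ∈ U := by
      by_contra hcon
      have hcon : p ∉ U ∧ q ∉ U := by tauto
      have := (hU p q hcon.1 hcon.2).2 ((adj_iff hpq).2 a1)
      rw [adj_iff hpq, mem_switch] at this
      simp only [mkE_eq_iff, Ne] at this
      tauto
    have c2 : r ∈ U ∨ s ∈ U := by
      by_contra hcon
      have hcon : r ∉ U ∧ s ∉ U := by tauto
      have := (hU r s hcon.1 hcon.2).2 ((adj_iff hrs).2 a2)
      rw [adj_iff hrs, mem_switch] at this
      simp only [mkE_eq_iff, Ne] at this
      tauto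
    have c3 : p ∈ U ∨ r ∈ U := by
      by_contra hcon
      have hcon : p ∉ U ∧ r ∉ U := by tauto
      have : adj (G \ pm2 p q r s hpq hrs ∪ pm2 p r q s hpr hqs) p r := by
        rw [adj_iff hpr, mem_switch]
        right; left; rfl
      exact b1 ((adj_iff hpr).1 ((hU p r hcon.1 hcon.2).1 this))
    have c4 : q ∈ U ∨ s ∈ U := by
      by_contra hcon
      have hcon : q ∉ U ∧ s ∉ U := by tauto
      have : adj (G \ pm2 p q r s hpq hrs ∪ pm2 p r q s hpr hqs) q s := by
        rw [adj_iff hqs, mem_switch]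
        right; right; rfl
      exact b2 ((adj_iff hqs).1 ((hU q s hcon.1 hcon.2).1 this))
    rw [Finset.mem_insert, Finset.mem_singleton]
    by_cases hp : p ∈ U
    · left
      have hs : s ∈ U := by
        by_contra hs
        have hr : r ∈ U := by tauto
        have hq : q ∈ U := by tauto
        have h3 : ({p, q, r} : Finset (Fin n)) ⊆ U := by
          intro v hv
          simp only [mem_insert, mem_singleton] at hv
          rcases hv with rfl | rfl | rfl <;> assumption
        have := Finset.card_le_card h3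
        rw [Finset.card_insert_of_notMem (by simp [hpq, hpr]),
          Finset.card_pair hqr] at this
        omega
      symm
      refine Finset.eq_of_subset_of_card_le ?_ ?_
      · intro v hv
        simp only [mem_insert, mem_singleton] at hv
        rcases hv with rfl | rfl <;> assumption
      · rw [hcard, Finset.card_pair hps]
    · right
      have hq : q ∈ U := by tauto
      have hr : r ∈ U := by tauto
      symm
      refine Finset.eq_of_subset_of_card_le ?_ ?_
      · intro v hv
        simp only [mem_insert, mem_singleton] at hv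
        rcases hv with rfl | rfl <;> assumption
      · rw [hcard, Finset.card_pair hqr]
  exact le_trans (Finset.card_le_card hsub) Finset.card_le_two

end Crest.Agent.Helper65.Switch
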