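import Crest.Agent.Helper65.Switch.Dirichlet

/-!
# S0453: the switch graph on the realizations of a degree vector is connected

* `switch_connected` : any two realizations of `d` are joined by a chain of switches;
* `const_of_switch_invariant`, `const_of_energy_zero` : a function with zero switch energy is
  constant on the realizations.

Classical vertex-by-vertex argument, organised without reindexing `Fin n`: induction on a set `S`
of settled vertices (all edges meeting `S` agree); for `v ∉ S` an inner induction on
`|N_G(v) \ N_G'(v)|`.  Route-independent (helper65).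
-/

set_option autoImplicit false

namespace Crest.Agent.Helper65.Switch

open Finset Crest.SwitchChain

variable {n : ℕ}

/-- adjacency in the graph with edge set `G`. -/
def adj (G : Finset (Edge n)) (x y : Fin n) : Prop := ∃ h : x ≠ y, mkE x y h ∈ G

lemma adj_iff {G : Finset (Edge n)} {x y : Fin n} (h : x ≠ y) : adj G x y ↔ mkE x y h ∈ G :=
  ⟨fun ⟨_, h'⟩ => h', fun h' => ⟨h, h'⟩⟩

lemma adj.ne {G : Finset (Edge n)} {x y : Fin n} (h : adj G x y) : x ≠ y := h.1

lemma mkE_comm (x y : Fin n) (h : x ≠ y) : mkE x y h = mkE y x h.symm := by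
  rw [mkE_eq_iff]; right; exact ⟨rfl, rfl⟩

lemma adj_comm {G : Finset (Edge n)} {x y : Fin n} : adj G x y ↔ adj G y x := by
  constructor
  · rintro ⟨h, h'⟩; exact ⟨h.symm, by rwa [← mkE_comm]⟩
  · rintro ⟨h, h'⟩; exact ⟨h.symm, by rwa [← mkE_comm]⟩

/-- the neighbourhood of a vertex. -/
noncomputable def nb (G : Finset (Edge n)) (v : Fin n) : Finset (Fin n) := by
  classical exact univ.filter fun w => adj G v w

lemma mem_nb {G : Finset (Edge n)} {v w : Fin n} : w ∈ nb G v ↔ adj G v w := by
  classical
  simp [nb]

lemma deg_eq_card_nb (G : Finset (Edge n)) (v : Fin n) : deg G v = (nb G v).card := by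
  classical
  rw [deg_def]
  symm
  refine Finset.card_bij (fun w hw => mkE v w (mem_nb.1 hw).1) ?_ ?_ ?_
  · intro w hw
    rw [Finset.mem_filter]
    exact ⟨(mem_nb.1 hw).2, by simp⟩
  · intro w hw w' hw' h
    rw [mkE_eq_iff] at h
    rcases h with h | h
    · exact h.2
    · exact absurd h.1 (mem_nb.1 hw').1
  · intro e he
    rw [Finset.mem_filter] at he
    obtain ⟨x, y, hxy, rfl⟩ := exists_eq_mkE e
    have hv : v = x ∨ v = y := by simpa using he.2
    rcases hv with rfl | rfl
    · exact ⟨y, mem_nb.2 ⟨hxy, he.1⟩, rfl⟩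
    · refine ⟨x, mem_nb.2 ⟨hxy.symm, ?_⟩, ?_⟩
      · rw [← mkE_comm]; exact he.1
      · rw [← mkE_comm]

/-- `G` and `G'` agree on all edges meeting `S`. -/
def Agree (S : Finset (Fin n)) (G G' : Finset (Edge n)) : Prop :=
  ∀ s ∈ S, ∀ w, adj G s w ↔ adj G' s w

lemma Agree.symm {S : Finset (Fin n)} {G G' : Finset (Edge n)} (h : Agree S G G') :
    Agree S G' G := fun s hs w => (h s hs w).symm

lemma eq_of_agree_univ {G G' : Finset (Edge n)} (h : Agree univ G G') : G = G' := by
  ext e
  obtain ⟨x, y, hxy, rfl⟩ := exists_eq_mkE e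
  rw [← adj_iff hxy, ← adj_iff hxy]
  exact h x (Finset.mem_univ _) y

/-- membership in the switched graph. -/
lemma mem_switch {G : Finset (Edge n)} {a b c d : Fin n}
    (hab : a ≠ b) (hac : a ≠ c) (hbd : b ≠ d) (hcd : c ≠ d) (e : Edge n) :
    e ∈ G \ pm2 a b c d hab hcd ∪ pm2 a c b d hac hbd ↔
      (e ∈ G ∧ e ≠ mkE a b hab ∧ e ≠ mkE c d hcd) ∨ e = mkE a c hac ∨ e = mkE b d hbd := by
  simp only [pm2, mem_union, mem_sdiff, mem_insert, mem_singleton, not_or]

lemma not_adj_self {G : Finset (Edge n)} {x : Fin n} : ¬ adj G x x := fun h => h.1 rfl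

/-- residual degrees outside `S` agree. -/
lemma card_nb_sdiff_eq {d : Fin n → ℕ} {S : Finset (Fin n)} {G G' : Finset (Edge n)}
    (hG : G ∈ realizations d) (hG' : G' ∈ realizations d) (h : Agree S G G') (w : Fin n) :
    (nb G w \ S).card = (nb G' w \ S).card := by
  classical
  have h1 : nb G w ∩ S = nb G' w ∩ S := by
    ext s
    simp only [mem_inter, mem_nb]
    constructor
    · rintro ⟨hs, hsS⟩; exact ⟨adj_comm.1 ((h s hsS w).1 (adj_comm.1 hs)), hsS⟩
    · rintro ⟨hs, hsS⟩; exact ⟨adj_comm.1 ((h s hsS w).2 (adj_comm.1 hs)), hsS⟩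
  have h2 : (nb G w).card = (nb G' w).card := by
    rw [← deg_eq_card_nb, ← deg_eq_card_nb, mem_realizations.1 hG w, mem_realizations.1 hG' w]
  have e1 := Finset.card_sdiff_add_card_inter (nb G w) S
  have e2 := Finset.card_sdiff_add_card_inter (nb G' w) S
  rw [h1] at e1
  omega

/-- One step of the classical argument: if `vx ∈ G \ G'`, `vy ∈ G' \ G` and the residual degree of
`x` is at most that of `y`, a switch of `G` replaces `vx` by `vy` without touching `S`. -/
lemma switch_step {S : Finset (Fin n)} {G G' : Finset (Edge n)} (h : Agree S G G')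
    {v x y : Fin n} (hv : v ∉ S) (hx : x ∈ nb G v) (hx' : x ∉ nb G' v)
    (hy : y ∈ nb G' v) (hy' : y ∉ nb G v)
    (hle : (nb G x \ S).card ≤ (nb G y \ S).card) :
    ∃ G1, IsSwitch G G1 ∧ Agree S G1 G' ∧ nb G1 v = insert y ((nb G v).erase x) := by
  classical
  rw [mem_nb] at hx hx' hy hy'
  have hxS : x ∉ S := fun hxS => hx' (adj_comm.1 ((h x hxS v).1 (adj_comm.1 hx)))
  have hyS : y ∉ S := fun hyS => hy' (adj_comm.1 ((h y hyS v).2 (adj_comm.1 hy)))
  have hvx : v ≠ x := hx.1
  have hvy : v ≠ y := hy.1
  have hxy : x ≠ y := by rintro rfl; exact hy' hx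
  -- the vertex z
  have hz : ∃ z, adj G y z ∧ z ∉ S ∧ z ≠ x ∧ ¬ adj G x z := by
    by_contra hcon
    have hcon : ∀ z, adj G y z → z ∉ S → z ≠ x → adj G x z := by
      intro z h1 h2 h3
      by_contra h4
      exact hcon ⟨z, h1, h2, h3, h4⟩
    have hsub : (nb G y \ S).erase x ⊆ ((nb G x \ S).erase v).erase y := by
      intro z hz
      rw [Finset.mem_erase, Finset.mem_sdiff, mem_nb] at hz
      obtain ⟨hzx, hyz, hzS⟩ := hz
      rw [Finset.mem_erase, Finset.mem_erase, Finset.mem_sdiff, mem_nb]
      refine ⟨?_, ?_, hcon z hyz hzS hzx, hzS⟩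
      · rintro rfl; exact not_adj_self hyz
      · rintro rfl; exact hy' (adj_comm.1 hyz)
    have hc := Finset.card_le_card hsub
    have hvX : v ∈ nb G x \ S := by
      rw [Finset.mem_sdiff, mem_nb]; exact ⟨adj_comm.1 hx, hv⟩
    by_cases hxy' : adj G x y
    · have h1 : y ∈ (nb G x \ S).erase v := by
        rw [Finset.mem_erase, Finset.mem_sdiff, mem_nb]
        exact ⟨hvy.symm, hxy', hyS⟩
      rw [Finset.card_erase_of_mem h1, Finset.card_erase_of_mem hvX] at hc
      have h2 : x ∈ nb G y \ S := by
        rw [Finset.mem_sdiff, mem_nb]; exact ⟨adj_comm.1 hxy', hxS⟩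
      rw [Finset.card_erase_of_mem h2] at hc
      have h3 : 0 < (nb G y \ S).card := Finset.card_pos.2 ⟨x, h2⟩
      have h4 : 1 < (nb G x \ S).card := by
        have : 0 < ((nb G x \ S).erase v).card := Finset.card_pos.2 ⟨y, h1⟩
        rw [Finset.card_erase_of_mem hvX] at this
        omega
      omega
    · have h2 : x ∉ nb G y \ S := by
        rw [Finset.mem_sdiff, mem_nb]; exact fun hh => hxy' (adj_comm.1 hh.1)
      rw [Finset.erase_eq_of_notMem h2] at hc
      have h3 := Finset.card_erase_le (s := (nb G x \ S).erase v) (a := y)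
      rw [Finset.card_erase_of_mem hvX] at h3
      have h4 : 0 < (nb G x \ S).card := Finset.card_pos.2 ⟨v, hvX⟩
      omega
  obtain ⟨z, hyz, hzS, hzx, hxz⟩ := hz
  have hyz' : y ≠ z := hyz.1
  have hvz : v ≠ z := by rintro rfl; exact hy' (adj_comm.1 hyz)
  have hxz' : x ≠ z := fun hh => hzx hh.symm
  have h1 : pm2 v x y z hvx hyz' ⊆ G := by
    intro e he
    simp only [pm2, mem_insert, mem_singleton] at he
    rcases he with rfl | rfl
    · exact (adj_iff hvx).1 hx
    · exact (adj_iff hyz').1 hyz
  have h2 : Disjoint (pm2 v y x z hvy hxz') G := by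
    rw [Finset.disjoint_left]
    intro e he
    simp only [pm2, mem_insert, mem_singleton] at he
    rcases he with rfl | rfl
    · exact fun hh => hy' ((adj_iff hvy).2 hh)
    · exact fun hh => hxz ((adj_iff hxz').2 hh)
  refine ⟨G \ pm2 v x y z hvx hyz' ∪ pm2 v y x z hvy hxz',
    isSwitch_pm2 hvx hvy hvz hxy hxz' hyz' h1 h2, ?_, ?_⟩
  · -- agreement on S is preserved
    intro s hs w
    rw [← h s hs w]
    have hsv : s ≠ v := by rintro rfl; exact hv hs
    have hsx : s ≠ x := by rintro rfl; exact hxS hs
    have hsy : s ≠ y := by rintro rfl; exact hyS hs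
    have hsz : s ≠ z := by rintro rfl; exact hzS hs
    by_cases hsw : s = w
    · subst hsw
      exact ⟨fun hh => absurd hh not_adj_self, fun hh => absurd hh not_adj_self⟩
    · rw [adj_iff hsw, adj_iff hsw, mem_switch]
      simp only [mkE_eq_iff, Ne]
      tauto
  · ext w
    rw [mem_nb, Finset.mem_insert, Finset.mem_erase, mem_nb]
    by_cases hvw : v = w
    · subst hvw
      constructor
      · intro hh; exact absurd hh not_adj_self
      · rintro (hh | ⟨-, hh⟩)
        · exact absurd hh hvy
        · exact absurd hh not_adj_self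
    · rw [adj_iff hvw, adj_iff hvw, mem_switch]
      simp only [mkE_eq_iff, Ne]
      have hwv : w ≠ v := fun hh => hvw hh.symm
      tauto

/-- Realizations agreeing on all edges meeting `S` are joined by switches (induction on the
number of vertices outside `S`). -/
lemma connected_of_agree_aux {d : Fin n → ℕ} (m : ℕ) :
    ∀ (S : Finset (Fin n)), (Sᶜ).card = m → ∀ G ∈ realizations d, ∀ G' ∈ realizations d,
      Agree S G G' → Relation.ReflTransGen IsSwitch G G' := by
  classical
  induction m with
  | zero =>
    intro S hS G hG G' hG' h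
    have hSu : S = univ := by
      rw [Finset.card_eq_zero, Finset.compl_eq_empty_iff] at hS; exact hS
    subst hSu
    rw [eq_of_agree_univ h]
  | succ m ih =>
    intro S hS G hG G' hG' h
    have hne : (Sᶜ).Nonempty := by rw [← Finset.card_pos, hS]; omega
    obtain ⟨v, hv⟩ := hne
    rw [Finset.mem_compl] at hv
    -- inner induction on `|N_G(v) \ N_G'(v)|`
    have inner : ∀ k : ℕ, ∀ G ∈ realizations d, ∀ G' ∈ realizations d, Agree S G G' →
        (nb G v \ nb G' v).card = k → Relation.ReflTransGen IsSwitch G G' := by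
      intro k
      induction k with
      | zero =>
        intro G hG G' hG' h hk
        have hsub : nb G v ⊆ nb G' v := by
          rw [Finset.card_eq_zero, Finset.sdiff_eq_empty_iff_subset] at hk; exact hk
        have hcard : (nb G' v).card ≤ (nb G v).card := by
          rw [← deg_eq_card_nb, ← deg_eq_card_nb, mem_realizations.1 hG v,
            mem_realizations.1 hG' v]
        have heq : nb G v = nb G' v := Finset.eq_of_subset_of_card_le hsub hcard
        refine ih (insert v S) ?_ G hG G' hG' ?_
        · rw [Finset.compl_insert, Finset.card_erase_of_mem (Finset.mem_compl.2 hv), hS]; rfl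
        · intro s hs w
          rw [Finset.mem_insert] at hs
          rcases hs with rfl | hs
          · rw [← mem_nb, ← mem_nb, heq]
          · exact h s hs w
      | succ k ihk =>
        intro G hG G' hG' h hk
        have hcardeq : (nb G v).card = (nb G' v).card := by
          rw [← deg_eq_card_nb, ← deg_eq_card_nb, mem_realizations.1 hG v,
            mem_realizations.1 hG' v]
        have hk' : (nb G' v \ nb G v).card = k + 1 := by
          rw [← hk]; exact Finset.card_sdiff_comm hcardeq.symm
        obtain ⟨x, hx⟩ := Finset.card_pos.1 (by rw [hk]; omega : 0 < (nb G v \ nb G' v).card)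
        obtain ⟨y, hy⟩ := Finset.card_pos.1 (by rw [hk']; omega : 0 < (nb G' v \ nb G v).card)
        rw [Finset.mem_sdiff] at hx hy
        rcases le_total (nb G x \ S).card (nb G y \ S).card with hle | hle
        · obtain ⟨G1, hsw, hag, hnb⟩ := switch_step h hv hx.1 hx.2 hy.1 hy.2 hle
          have hG1 : G1 ∈ realizations d := hsw.mem_realizations hG
          refine Relation.ReflTransGen.head hsw (ihk G1 hG1 G' hG' hag ?_)
          rw [hnb]
          have hset : insert y ((nb G v).erase x) \ nb G' v = (nb G v \ nb G' v).erase x := by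
            ext w
            simp only [mem_sdiff, mem_insert, mem_erase]
            constructor
            · rintro ⟨(rfl | ⟨h1, h2⟩), h3⟩
              · exact absurd hy.1 h3
              · exact ⟨h1, h2, h3⟩
            · rintro ⟨h1, h2, h3⟩
              exact ⟨Or.inr ⟨h1, h2⟩, h3⟩
          rw [hset, Finset.card_erase_of_mem (Finset.mem_sdiff.2 hx), hk]; rfl
        · -- mirror: switch `G'`
          have hle' : (nb G' y \ S).card ≤ (nb G' x \ S).card := by
            rw [← card_nb_sdiff_eq hG hG' h y, ← card_nb_sdiff_eq hG hG' h x]; exact hle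
          obtain ⟨G1, hsw, hag, hnb⟩ := switch_step h.symm hv hy.1 hy.2 hx.1 hx.2 hle'
          have hG1 : G1 ∈ realizations d := hsw.mem_realizations hG'
          refine Relation.ReflTransGen.tail (ihk G hG G1 hG1 hag.symm ?_) hsw.symm
          rw [hnb]
          have hset : nb G v \ insert x ((nb G' v).erase y) = (nb G v \ nb G' v).erase x := by
            ext w
            simp only [mem_sdiff, mem_insert, mem_erase, not_or, not_and]
            constructor
            · rintro ⟨h1, h2, h3⟩
              refine ⟨h2, h1, fun h4 => h3 ?_ h4⟩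
              rintro rfl; exact hy.2 h1
            · rintro ⟨h1, h2, h3⟩
              exact ⟨h2, h1, fun _ h4 => h3 h4⟩
          rw [hset, Finset.card_erase_of_mem (Finset.mem_sdiff.2 hx), hk]; rfl
    exact inner _ G hG G' hG' h rfl

/-- **Connectivity of the switch graph**: any two realizations of `d` are joined by a chain of
switches. -/
theorem switch_connected {d : Fin n → ℕ} {G G' : Finset (Edge n)}
    (hG : G ∈ realizations d) (hG' : G' ∈ realizations d) :
    Relation.ReflTransGen IsSwitch G G' :=
  connected_of_agree_aux _ ∅ rfl G hG G' hG' (fun s hs => absurd hs (Finset.notMem_empty s))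

/-- A switch-invariant function is constant on the realizations. -/
theorem const_of_switch_invariant {β : Type*} {d : Fin n → ℕ} (f : Finset (Edge n) → β)
    (h : ∀ G ∈ realizations d, ∀ G', IsSwitch G G' → f G = f G') :
    ∀ G ∈ realizations d, ∀ G' ∈ realizations d, f G = f G' := by
  intro G hG G' hG'
  have key : ∀ G'', Relation.ReflTransGen IsSwitch G G'' →
      G'' ∈ realizations d ∧ f G = f G'' := by
    intro G'' hchain
    induction hchain with
    | refl => exact ⟨hG, rfl⟩
    | tail _ hbc ih => exact ⟨hbc.mem_realizations ih.1, ih.2.trans (h _ ih.1 _ hbc)⟩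
  exact (key G' (switch_connected hG hG')).2

/-- A function with zero switch energy is constant on the realizations. -/
theorem const_of_energy_zero {d : Fin n → ℕ} (f : Finset (Edge n) → ℝ)
    (h : ∑ G ∈ realizations d, ∑ G' ∈ realizations d,
      (proposalCount G G' : ℝ) * (f G - f G') ^ 2 = 0) :
    ∀ G ∈ realizations d, ∀ G' ∈ realizations d, f G = f G' := by
  refine const_of_switch_invariant f ?_
  intro G hG G' hsw
  have hG' : G' ∈ realizations d := hsw.mem_realizations hG
  have h1 := (Finset.sum_eq_zero_iff_of_nonneg (fun G _ =>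
    Finset.sum_nonneg fun G' _ => by positivity)).1 h G hG
  have h2 := (Finset.sum_eq_zero_iff_of_nonneg (fun G' _ => by positivity)).1 h1 G' hG'
  have h3 : (1 : ℝ) ≤ (proposalCount G G' : ℝ) := by exact_mod_cast one_le_proposalCount hsw
  have h4 : (f G - f G') ^ 2 = 0 := by
    rcases mul_eq_zero.1 h2 with h5 | h5
    · linarith
    · exact h5
  have h5 : f G - f G' = 0 := by simpa using h4
  linarith

end Crest.Agent.Helper65.Switch
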