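import Crest.Agent.Helper65.Switch.Mixing

/-!
# S0453: the Dirichlet form of the lazy switch chain

* `dirichlet_identity` : for the kernel restricted to `realizations d`,
  `∑_G f G (f G - ∑_{G'} K G G' f G') = (1 / (24 C(n,4))) ∑_{G,G'} proposalCount G G' (f G - f G')²`.
* `IsSwitch`, `one_le_proposalCount`, `isSwitch_of_proposalCount_pos`, `isSwitch_pm2`.
* `result_of_gap` : the frozen statement S0453 follows from the "unnormalised gap" inequality
  `N ∑ f² - (∑ f)² ≤ n² N ∑_{G,G'} proposalCount G G' (f G - f G')²`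
  (i.e. `λ₂(L) ≥ 1/(2n²)` for the Laplacian `L` of the switch graph).
Route-independent (helper65).
-/

set_option autoImplicit false

namespace Crest.Agent.Helper65.Switch

open Finset Crest.SwitchChain

variable {n : ℕ}

/-- Number of proposals from a realization that land in the realizations: `6 C(n,4)`. -/
lemma sum_proposalCount_realizations {d : Fin n → ℕ} {G : Finset (Edge n)}
    (hG : G ∈ realizations d) :
    ∑ G' ∈ realizations d, (proposalCount G G' : ℝ) = 6 * (n.choose 4 : ℝ) := by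
  have h1 : ∑ G' ∈ realizations d, (proposalCount G G' : ℝ) =
      ∑ G' : Finset (Edge n), (proposalCount G G' : ℝ) := by
    refine Finset.sum_subset (Finset.subset_univ _) fun G' _ hG' => ?_
    rw [proposalCount_eq_zero_of_not_mem hG hG', Nat.cast_zero]
  rw [h1, ← Nat.cast_sum, sum_proposalCount]
  push_cast
  ring

/-- The generator applied to `f`, at a realization. -/
lemma sub_kernel_apply (hn : 4 ≤ n) {d : Fin n → ℕ} (f : Finset (Edge n) → ℝ)
    {G : Finset (Edge n)} (hG : G ∈ realizations d) :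
    f G - ∑ G' ∈ realizations d, kernel n G G' * f G' =
      (1 / (12 * (n.choose 4 : ℝ))) *
        ∑ G' ∈ realizations d, (proposalCount G G' : ℝ) * (f G - f G') := by
  have hC : (0 : ℝ) < (n.choose 4 : ℝ) := by exact_mod_cast Nat.choose_pos hn
  have e1 : ∑ G' ∈ realizations d, kernel n G G' * f G' =
      f G / 2 + (1 / (12 * (n.choose 4 : ℝ))) *
        ∑ G' ∈ realizations d, (proposalCount G G' : ℝ) * f G' := by
    simp only [kernel_apply, add_mul]
    rw [Finset.sum_add_distrib, Finset.mul_sum]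
    congr 1
    · simp only [ite_mul, zero_mul]
      rw [Finset.sum_ite_eq, if_pos hG]
      ring
    · refine Finset.sum_congr rfl fun G' _ => ?_
      ring
  have e2 : ∑ G' ∈ realizations d, (proposalCount G G' : ℝ) * (f G - f G') =
      6 * (n.choose 4 : ℝ) * f G - ∑ G' ∈ realizations d, (proposalCount G G' : ℝ) * f G' := by
    simp only [mul_sub]
    rw [Finset.sum_sub_distrib, ← Finset.sum_mul, sum_proposalCount_realizations hG]
  rw [e1, e2]
  field_simp
  ring

/-- **Dirichlet identity** for the lazy switch chain on the realizations of `d`. -/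
theorem dirichlet_identity (hn : 4 ≤ n) (d : Fin n → ℕ) (f : Finset (Edge n) → ℝ) :
    ∑ G ∈ realizations d, f G * (f G - ∑ G' ∈ realizations d, kernel n G G' * f G') =
      (1 / (24 * (n.choose 4 : ℝ))) *
        ∑ G ∈ realizations d, ∑ G' ∈ realizations d,
          (proposalCount G G' : ℝ) * (f G - f G') ^ 2 := by
  have hC : (0 : ℝ) < (n.choose 4 : ℝ) := by exact_mod_cast Nat.choose_pos hn
  set T : ℝ := ∑ G ∈ realizations d, ∑ G' ∈ realizations d,
      (proposalCount G G' : ℝ) * (f G * (f G - f G')) with hT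
  have h1 : ∑ G ∈ realizations d, f G * (f G - ∑ G' ∈ realizations d, kernel n G G' * f G') =
      (1 / (12 * (n.choose 4 : ℝ))) * T := by
    rw [hT, Finset.mul_sum]
    refine Finset.sum_congr rfl fun G hG => ?_
    rw [sub_kernel_apply hn f hG, Finset.mul_sum, Finset.mul_sum, Finset.mul_sum]
    refine Finset.sum_congr rfl fun G' _ => ?_
    ring
  have h2 : ∑ G ∈ realizations d, ∑ G' ∈ realizations d,
      (proposalCount G G' : ℝ) * (f G - f G') ^ 2 = T + T := by
    have hswap : T = ∑ G ∈ realizations d, ∑ G' ∈ realizations d,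
        (proposalCount G G' : ℝ) * (f G' * (f G' - f G)) := by
      rw [hT, Finset.sum_comm]
      refine Finset.sum_congr rfl fun G _ => Finset.sum_congr rfl fun G' _ => ?_
      rw [proposalCount_symm G' G]
    have hsplit : ∑ G ∈ realizations d, ∑ G' ∈ realizations d,
        (proposalCount G G' : ℝ) * (f G - f G') ^ 2 =
        (∑ G ∈ realizations d, ∑ G' ∈ realizations d,
          (proposalCount G G' : ℝ) * (f G * (f G - f G'))) +
        ∑ G ∈ realizations d, ∑ G' ∈ realizations d,
          (proposalCount G G' : ℝ) * (f G' * (f G' - f G)) := by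
      rw [← Finset.sum_add_distrib]
      refine Finset.sum_congr rfl fun G _ => ?_
      rw [← Finset.sum_add_distrib]
      refine Finset.sum_congr rfl fun G' _ => ?_
      ring
    rw [hsplit, ← hswap]
  rw [h1, h2]
  field_simp
  ring

/-- `G'` is obtained from `G` by a switch. -/
def IsSwitch (G G' : Finset (Edge n)) : Prop :=
  ∃ S ∈ (univ : Finset (Fin n)).powersetCard 4, ∃ F ∈ pmSet S, ∃ F' ∈ pmSet S,
    F ≠ F' ∧ F ⊆ G ∧ Disjoint F' G ∧ G' = G \ F ∪ F'

lemma one_le_proposalCount {G G' : Finset (Edge n)} (h : IsSwitch G G') :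
    1 ≤ proposalCount G G' := by
  obtain ⟨S, hS, F, hF, F', hF', hne, h1, h2, rfl⟩ := h
  rw [proposalCount_def]
  have hF'e : F' ∈ (pmSet S).erase F := Finset.mem_erase.2 ⟨fun hh => hne hh.symm, hF'⟩
  have hterm : (if switchResult G F F' = G \ F ∪ F' then 1 else 0 : ℕ) = 1 := by
    rw [if_pos]
    rw [switchResult_def, if_pos ⟨h1, h2⟩]
  calc 1 = (if switchResult G F F' = G \ F ∪ F' then 1 else 0 : ℕ) := hterm.symm
    _ ≤ ∑ F'' ∈ (pmSet S).erase F, (if switchResult G F F'' = G \ F ∪ F' then 1 else 0 : ℕ) :=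
        Finset.single_le_sum (f := fun F'' =>
          (if switchResult G F F'' = G \ F ∪ F' then 1 else 0 : ℕ)) (fun _ _ => Nat.zero_le _) hF'e
    _ ≤ ∑ F₀ ∈ pmSet S, ∑ F'' ∈ (pmSet S).erase F₀,
          (if switchResult G F₀ F'' = G \ F ∪ F' then 1 else 0 : ℕ) :=
        Finset.single_le_sum (f := fun F₀ => ∑ F'' ∈ (pmSet S).erase F₀,
          (if switchResult G F₀ F'' = G \ F ∪ F' then 1 else 0 : ℕ)) (fun _ _ => Nat.zero_le _) hF
    _ ≤ _ :=
        Finset.single_le_sum (f := fun S₀ => ∑ F₀ ∈ pmSet S₀, ∑ F'' ∈ (pmSet S₀).erase F₀,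
          (if switchResult G F₀ F'' = G \ F ∪ F' then 1 else 0 : ℕ)) (fun _ _ => Nat.zero_le _) hS

lemma isSwitch_of_proposalCount_pos {G G' : Finset (Edge n)} (hne : G ≠ G')
    (h : 0 < proposalCount G G') : IsSwitch G G' := by
  rw [proposalCount_def] at h
  obtain ⟨S, hS, hS'⟩ := Finset.exists_ne_zero_of_sum_ne_zero h.ne'
  obtain ⟨F, hF, hF'⟩ := Finset.exists_ne_zero_of_sum_ne_zero hS'
  obtain ⟨F', hF'm, hF''⟩ := Finset.exists_ne_zero_of_sum_ne_zero hF'
  have hres : switchResult G F F' = G' := by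
    by_contra hh
    exact hF'' (if_neg hh)
  obtain ⟨hne', hF'p⟩ := Finset.mem_erase.1 hF'm
  rw [switchResult_def] at hres
  split_ifs at hres with hc
  · exact ⟨S, hS, F, hF, F', hF'p, fun hh => hne' hh.symm, hc.1, hc.2, hres.symm⟩
  · exact absurd hres hne

lemma IsSwitch.symm {G G' : Finset (Edge n)} (h : IsSwitch G G') : IsSwitch G' G := by
  obtain ⟨S, hS, F, hF, F', hF', hne, h1, h2, rfl⟩ := h
  have hFF' : Disjoint F F' := pm_disjoint hF hF' hne
  have hsub : F' ⊆ G \ F ∪ F' := Finset.subset_union_right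
  have hdisj : Disjoint F (G \ F ∪ F') := by
    rw [Finset.disjoint_union_right]
    exact ⟨Finset.disjoint_sdiff, hFF'⟩
  refine ⟨S, hS, F', hF', F, hF, fun hh => hne hh.symm, hsub, hdisj, ?_⟩
  ext e
  simp only [mem_union, mem_sdiff]
  constructor
  · intro he
    by_cases heF : e ∈ F
    · right; exact heF
    · left
      exact ⟨Or.inl ⟨he, heF⟩, fun he' => (Finset.disjoint_left.1 h2 he') he⟩
  · rintro (⟨(⟨he, -⟩ | he), hn⟩ | he)
    · exact he
    · exact absurd he hn
    · exact h1 he

lemma IsSwitch.ne {G G' : Finset (Edge n)} (h : IsSwitch G G') : G ≠ G' := by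
  obtain ⟨S, hS, F, hF, F', hF', hne, h1, h2, rfl⟩ := h
  intro hh
  -- an edge of F' is in G \ F ∪ F' but not in G
  obtain ⟨hc, -, -⟩ := mem_pmSet.1 hF'
  have hne' : F'.Nonempty := by
    rw [← Finset.card_pos, hc]; norm_num
  obtain ⟨e, he⟩ := hne'
  have : e ∈ G := by
    rw [hh]; exact Finset.mem_union_right _ he
  exact (Finset.disjoint_left.1 h2 he) this

lemma IsSwitch.mem_realizations {d : Fin n → ℕ} {G G' : Finset (Edge n)} (h : IsSwitch G G')
    (hG : G ∈ realizations d) : G' ∈ realizations d := by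
  obtain ⟨S, hS, F, hF, F', hF', hne, h1, h2, rfl⟩ := h
  have := (switchResult_mem_realizations (d := d) (E := G) hF hF').2 hG
  rwa [switchResult_def, if_pos ⟨h1, h2⟩] at this

/-- The switch along the alternating 4-cycle `a b d c` (edges `ab`, `cd` present; `ac`, `bd`
absent). -/
lemma isSwitch_pm2 {G : Finset (Edge n)} {a b c d : Fin n}
    (hab : a ≠ b) (hac : a ≠ c) (had : a ≠ d) (hbc : b ≠ c) (hbd : b ≠ d) (hcd : c ≠ d)
    (h1 : pm2 a b c d hab hcd ⊆ G) (h2 : Disjoint (pm2 a c b d hac hbd) G) :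
    IsSwitch G (G \ pm2 a b c d hab hcd ∪ pm2 a c b d hac hbd) := by
  have hS : ({a, b, c, d} : Finset (Fin n)) ∈ (univ : Finset (Fin n)).powersetCard 4 := by
    rw [Finset.mem_powersetCard]
    refine ⟨Finset.subset_univ _, ?_⟩
    rw [Finset.card_eq_four]
    exact ⟨a, b, c, d, hab, hac, had, hbc, hbd, hcd, rfl⟩
  have m1 : pm2 a b c d hab hcd ∈ pmSet ({a, b, c, d} : Finset (Fin n)) :=
    (pm_form hab hac had hbc hbd hcd _).2 (Or.inl rfl)
  have m2 : pm2 a c b d hac hbd ∈ pmSet ({a, b, c, d} : Finset (Fin n)) :=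
    (pm_form hab hac had hbc hbd hcd _).2 (Or.inr (Or.inl rfl))
  refine ⟨_, hS, _, m1, _, m2, ?_, h1, h2, rfl⟩
  intro hh
  have : mkE a b hab ∈ pm2 a c b d hac hbd := by
    rw [← hh]; simp [pm2]
  simp only [pm2, mem_insert, mem_singleton, mkE_eq_iff] at this
  tauto

/-- The Poincaré part of S0453 from the unnormalised gap inequality. -/
theorem poincare_of_gap (n : ℕ) (hn : 4 ≤ n) (d : Fin n → ℕ)
    (hgap : ∀ f : Finset (Edge n) → ℝ,
        ((realizations d).card : ℝ) * (∑ G ∈ realizations d, f G ^ 2) -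
            (∑ G ∈ realizations d, f G) ^ 2 ≤
          (n : ℝ) ^ 2 * (realizations d).card *
            ∑ G ∈ realizations d, ∑ G' ∈ realizations d,
              (proposalCount G G' : ℝ) * (f G - f G') ^ 2)
    (f : Finset (Edge n) → ℝ) :
    ((realizations d).card : ℝ) * (∑ G ∈ realizations d, f G ^ 2) -
        (∑ G ∈ realizations d, f G) ^ 2 ≤
      24 * (n : ℝ) ^ 2 * (n.choose 4 : ℝ) * (realizations d).card *
        ∑ G ∈ realizations d,
          f G * (f G - ∑ G' ∈ realizations d, kernel n G G' * f G') := by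
  have hC : (0 : ℝ) < (n.choose 4 : ℝ) := by exact_mod_cast Nat.choose_pos hn
  rw [dirichlet_identity hn d f]
  refine le_trans (hgap f) (le_of_eq ?_)
  field_simp

/-- **S0453 from the unnormalised gap inequality** (`λ₂(L) ≥ 1/(2n²)`). -/
theorem result_of_gap (n : ℕ) (hn : 4 ≤ n) (d : Fin n → ℕ)
    (hd : (realizations d).Nonempty)
    (hgap : ∀ f : Finset (Edge n) → ℝ,
        ((realizations d).card : ℝ) * (∑ G ∈ realizations d, f G ^ 2) -
            (∑ G ∈ realizations d, f G) ^ 2 ≤
          (n : ℝ) ^ 2 * (realizations d).card *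
            ∑ G ∈ realizations d, ∑ G' ∈ realizations d,
              (proposalCount G G' : ℝ) * (f G - f G') ^ 2) :
    (∃ t : ℕ, t ≤ 2 * n ^ 8 ∧ ∀ G ∈ realizations d,
        tvDist (fun G' => (kernel n ^ t) G G') (unifOn (realizations d)) ≤ 1 / 4) ∧
      ∀ f : Finset (Edge n) → ℝ,
        ((realizations d).card : ℝ) * (∑ G ∈ realizations d, f G ^ 2) -
            (∑ G ∈ realizations d, f G) ^ 2 ≤
          24 * (n : ℝ) ^ 2 * (n.choose 4 : ℝ) * (realizations d).card *
            ∑ G ∈ realizations d,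
              f G * (f G - ∑ G' ∈ realizations d, kernel n G G' * f G') :=
  result_of_poincare n hn d hd (poincare_of_gap n hn d hgap)

end Crest.Agent.Helper65.Switch
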