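import Crest.Agent.Helper65.Switch.PairClass
import Crest.Agent.Helper16.S0453.T2Om
import Crest.Agent.Helper26.SW.Assembly
import Crest.Agent.Helper10.S0453.DP

/-!
# S0453: integration (helper65)

* `pairClassModel` : helper16's pair-class interface, discharged by `PairClass.lean`;
* `t2Om` : `(T2-Om)`: `∑_{pairs U} ∑_{G ∈ Ω} f G · Rop d U f G ≤ switchEnergy d f`;
* `result_of_3B_DP` : the frozen statement S0453 from `(3B-Om)` and `(DP-Om)`.
-/

set_option autoImplicit false

namespace Crest.Agent.Helper65.Switch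

open Finset Crest.SwitchChain

variable {n : ℕ}

/-- helper16's pair-class interface holds (WP-B). -/
theorem pairClassModel (d : Fin n → ℕ) (U : Finset (Fin n))
    (hU : U ∈ (univ : Finset (Fin n)).powersetCard 2) :
    Crest.Agent.Helper16.S0453.PairClassModel d U := by
  obtain ⟨a, b, hab, rfl⟩ := Finset.card_eq_two.1 (Finset.mem_powersetCard.1 hU).2
  intro G hG
  refine ⟨freeSet G a b, (toSet G a b G).card, ofSet G a b, ?_, ?_, ?_, ?_⟩
  · intro A hA
    rw [Finset.mem_powersetCard] at hA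
    exact ofSet_mem_cls hG hab hA.1 hA.2
  · intro G' hG'
    exact ⟨toSet G a b G', toSet_mem_powersetCard hG hab hG', eq_ofSet_of_mem_cls hG hab hG'⟩
  · intro A hA A' hA' h
    rw [Finset.mem_powersetCard] at hA hA'
    have h' := congrArg (toSet G a b) h
    rwa [toSet_ofSet hab hA.1, toSet_ofSet hab hA'.1] at h'
  · intro A hA u hu w hw
    rw [Finset.mem_powersetCard] at hA
    rw [Finset.mem_sdiff] at hw
    exact isSwitch_ofSet_exchange hab hA.1 hu hw.1 hw.2

/-- **(T2-Om)**. -/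
theorem t2Om (d : Fin n → ℕ) (f : Finset (Edge n) → ℝ) :
    ∑ U ∈ (univ : Finset (Fin n)).powersetCard 2, ∑ G ∈ realizations d, f G * Rop d U f G ≤
      1 * switchEnergy d f := by
  rw [one_mul]
  exact Crest.Agent.Helper16.S0453.t2Om_of_model (fun U hU => pairClassModel d U hU) f

/-- **S0453 from (3B-Om) and (DP-Om)** (ordered 4-tuples). -/
theorem result_of_3B_DP (n : ℕ) (hn : 4 ≤ n) (d : Fin n → ℕ)
    (hd : (realizations d).Nonempty)
    (h3B : ∀ a b c : Fin n, a ≠ b → a ≠ c → b ≠ c → ∀ f : Finset (Edge n) → ℝ,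
        ∑ G ∈ realizations d,
            f G * (Qavg d {a, b} f G + Qavg d {a, c} f G + Qavg d {b, c} f G)
          ≤ 2 * ∑ G ∈ realizations d, f G ^ 2
            + ∑ G ∈ realizations d, f G * Qavg d {a, b, c} f G)
    (hDP : ∀ f : Finset (Edge n) → ℝ, 0 ≤ ∑ a : Fin n, ∑ b : Fin n, ∑ c : Fin n, ∑ e : Fin n,
        (if a ≠ b ∧ c ≠ e ∧ Disjoint ({a, b} : Finset (Fin n)) {c, e} then
          ∑ G ∈ realizations d, Rop d {a, b} f G * Rop d {c, e} f G else 0)) :
    (∃ t : ℕ, t ≤ 2 * n ^ 8 ∧ ∀ G ∈ realizations d,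
        tvDist (fun G' => (kernel n ^ t) G G') (unifOn (realizations d)) ≤ 1 / 4) ∧
      ∀ f : Finset (Edge n) → ℝ,
        ((realizations d).card : ℝ) * (∑ G ∈ realizations d, f G ^ 2) -
            (∑ G ∈ realizations d, f G) ^ 2 ≤
          24 * (n : ℝ) ^ 2 * (n.choose 4 : ℝ) * (realizations d).card *
            ∑ G ∈ realizations d,
              f G * (f G - ∑ G' ∈ realizations d, kernel n G G' * f G') := by
  have hc : (1 : ℝ) ≤ (n : ℝ) ^ 2 := by
    have h4 : (4 : ℝ) ≤ (n : ℝ) := by exact_mod_cast hn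
    nlinarith
  exact Crest.Agent.Helper26.SW.result_of_3B_DP_T2 n hn d hd 1 hc h3B hDP (t2Om d)

/-- **S0453 from (3B-Om), (TPL-graph) and (J2-graph)** (helper10's interface of record for the
disjoint-pair part). -/
theorem result_of_3B_TPL_J2 (n : ℕ) (hn : 4 ≤ n) (d : Fin n → ℕ)
    (hd : (realizations d).Nonempty)
    (h3B : ∀ a b c : Fin n, a ≠ b → a ≠ c → b ≠ c → ∀ f : Finset (Edge n) → ℝ,
        ∑ G ∈ realizations d,
            f G * (Qavg d {a, b} f G + Qavg d {a, c} f G + Qavg d {b, c} f G)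
          ≤ 2 * ∑ G ∈ realizations d, f G ^ 2
            + ∑ G ∈ realizations d, f G * Qavg d {a, b, c} f G)
    (hTPL : ∀ f : Finset (Edge n) → ℝ, Crest.Agent.Helper10.S0453.TPLGraph d f)
    (hJ2 : ∀ f : Finset (Edge n) → ℝ, Crest.Agent.Helper10.S0453.J2Graph d f) :
    (∃ t : ℕ, t ≤ 2 * n ^ 8 ∧ ∀ G ∈ realizations d,
        tvDist (fun G' => (kernel n ^ t) G G') (unifOn (realizations d)) ≤ 1 / 4) ∧
      ∀ f : Finset (Edge n) → ℝ,
        ((realizations d).card : ℝ) * (∑ G ∈ realizations d, f G ^ 2) -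
            (∑ G ∈ realizations d, f G) ^ 2 ≤
          24 * (n : ℝ) ^ 2 * (n.choose 4 : ℝ) * (realizations d).card *
            ∑ G ∈ realizations d,
              f G * (f G - ∑ G' ∈ realizations d, kernel n G G' * f G') := by
  have hc : (1 : ℝ) ≤ (n : ℝ) ^ 2 := by
    have h4 : (4 : ℝ) ≤ (n : ℝ) := by exact_mod_cast hn
    nlinarith
  have hvar := Crest.Agent.Helper26.SW.var_le_sum_Rop_of_pairs d h3B
    (fun f => Crest.Agent.Helper10.S0453.dp_pairs d f (hTPL f) (hJ2 f))
  exact result_of_switchEnergy n hn d hd 1 hc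
    (Crest.Agent.Helper26.SW.poincare_of_T2 d 1 hvar (t2Om d))

end Crest.Agent.Helper65.Switch
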