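import Crest.Agent.Helper65.Switch.PairClass
import Crest.Agent.Helper10.S0453.DPApi
import Crest.Agent.Helper49.SW.BJ2

/-!
# S0453, BJ2 closed: `(J2-graph)` holds

* `ofSet_exchange_eq` : the rewiring along `A - u + w` is the switched graph;
* `pairClassJ2` : helper49's interface `PairClassJ2 d a b`, from `PairClass.lean`;
* `j2Graph` : helper10's `J2Graph d f`, hypothesis-free.  (helper65)
-/

set_option autoImplicit false

namespace Crest.Agent.Helper65.Switch

open Finset Crest.SwitchChain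

variable {n : ℕ}

section
variable {G0 : Finset (Edge n)} {a b : Fin n} {A : Finset (Fin n)}

/-- The rewiring along `A - u + w` is the switch `au, wb → aw, ub` of the rewiring along `A`. -/
lemma ofSet_exchange_eq (hab : a ≠ b) (hA : A ⊆ freeSet G0 a b) {u w : Fin n}
    (hu : u ∈ A) (hw : w ∈ freeSet G0 a b) (hwA : w ∉ A)
    (hau : a ≠ u) (haw : a ≠ w) (hub : u ≠ b) (hwb : w ≠ b) :
    ofSet G0 a b (insert w (A.erase u)) =
      ofSet G0 a b A \ pm2 a u w b hau hwb ∪ pm2 a w u b haw hub := by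
  classical
  have huD := hA hu
  have hua : u ≠ a := fun h => hau h.symm
  have hwa : w ≠ a := fun h => haw h.symm
  have huw : u ≠ w := by rintro rfl; exact hwA hu
  have hA' : insert w (A.erase u) ⊆ freeSet G0 a b := by
    intro v hv
    rw [mem_insert, mem_erase] at hv
    rcases hv with rfl | ⟨-, hv⟩
    · exact hw
    · exact hA hv
  have hbu : b ≠ u := fun h => hub h.symm
  have hbw : b ≠ w := fun h => hwb h.symm
  have hba : b ≠ a := hab.symm
  refine ext_adj_pair (a := a) (b := b) ?_ ?_ ?_ ?_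
  · intro x y hxa hxb hya hyb
    rw [adj_ofSet_off x y hxa hxb hya hyb]
    by_cases hxy : x = y
    · subst hxy
      exact ⟨fun hh => absurd hh not_adj_self, fun hh => absurd hh not_adj_self⟩
    · rw [adj_switch hau haw hub hwb hxy, adj_ofSet_off x y hxa hxb hya hyb]
      tauto
  · rw [adj_ofSet_ab hab hA', adj_switch hau haw hub hwb hab, adj_ofSet_ab hab hA]
    tauto
  · intro v hva hvb
    have hav : a ≠ v := fun h => hva h.symm
    rw [adj_ofSet_a hab hA' v hva hvb, adj_switch hau haw hub hwb hav,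
      adj_ofSet_a hab hA v hva hvb, mem_insert, mem_erase]
    have f1 : v = u → v ∈ freeSet G0 a b := by rintro rfl; exact huD
    have haa : a = a := rfl
    tauto
  · intro v hva hvb
    have hbv : b ≠ v := fun h => hvb h.symm
    rw [adj_ofSet_b hab hA' v hva hvb, adj_switch hau haw hub hwb hbv,
      adj_ofSet_b hab hA v hva hvb, mem_insert, mem_erase]
    have f1 : v = u → v ∈ freeSet G0 a b := by rintro rfl; exact huD
    have f2 : v = w → v ∈ freeSet G0 a b := by rintro rfl; exact hw
    have f3 : v = u → v ≠ w := by rintro rfl; exact huw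
    have hbb : b = b := rfl
    tauto

/-- `SwAt` in Johnson coordinates. -/
lemma swAt_ofSet_iff (hab : a ≠ b) (hA : A ⊆ freeSet G0 a b) {c e : Fin n}
    (hca : c ≠ a) (hcb : c ≠ b) (hea : e ≠ a) (heb : e ≠ b) :
    Crest.Agent.Helper10.S0453.SwAt (ofSet G0 a b A) a b c e ↔
      c ∈ A ∧ e ∈ freeSet G0 a b ∧ e ∉ A := by
  unfold Crest.Agent.Helper10.S0453.SwAt
  rw [adj_ofSet_a hab hA c hca hcb, adj_ofSet_b hab hA e hea heb,
    adj_ofSet_a hab hA e hea heb, adj_ofSet_b hab hA c hca hcb]
  have hc : c ∈ freeSet G0 a b ↔ (adj G0 a c ↔ ¬ adj G0 b c) := by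
    rw [mem_freeSet]; tauto
  have he : e ∈ freeSet G0 a b ↔ (adj G0 a e ↔ ¬ adj G0 b e) := by
    rw [mem_freeSet]; tauto
  have hcA : c ∈ A → c ∈ freeSet G0 a b := fun h => hA h
  have heA : e ∈ A → e ∈ freeSet G0 a b := fun h => hA h
  tauto

end

/-- helper49's pair-class interface for `(J2-graph)`. -/
theorem pairClassJ2 (d : Fin n → ℕ) (a b : Fin n) (hab : a ≠ b) :
    Crest.Agent.Helper49.SW.PairClassJ2 d a b := by
  intro G hG
  have haD : a ∉ freeSet G a b := fun h => (mem_freeSet.1 h).1 rfl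
  have hbD : b ∉ freeSet G a b := fun h => (mem_freeSet.1 h).2.1 rfl
  refine ⟨freeSet G a b, (toSet G a b G).card, ofSet G a b, haD, hbD, ?_, ?_, ?_, ?_, ?_⟩
  · intro A hA
    rw [Finset.mem_powersetCard] at hA
    exact ofSet_mem_cls hG hab hA.1 hA.2
  · intro G' hG'
    exact ⟨toSet G a b G', toSet_mem_powersetCard hG hab hG', eq_ofSet_of_mem_cls hG hab hG'⟩
  · intro A hA A' hA' h
    rw [Finset.mem_powersetCard] at hA hA'
    have h' := congrArg (toSet G a b) h
    rwa [toSet_ofSet hab hA.1, toSet_ofSet hab hA'.1] at h'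
  · intro A hA c e hD
    rw [Finset.mem_powersetCard] at hA
    obtain ⟨-, h2, h3, h4, h5, -⟩ := hD
    exact swAt_ofSet_iff hab hA.1 (fun h => h2 h.symm) (fun h => h4 h.symm)
      (fun h => h3 h.symm) (fun h => h5 h.symm)
  · intro A hA c hc e he
    rw [Finset.mem_powersetCard] at hA
    rw [Finset.mem_sdiff] at he
    have hcD := hA.1 hc
    obtain ⟨hca, hcb, -⟩ := mem_freeSet.1 hcD
    obtain ⟨hea, heb, -⟩ := mem_freeSet.1 he.1
    have hce : c ≠ e := by rintro rfl; exact he.2 hc
    have hD : Crest.Agent.Helper10.S0453.D4 a b c e :=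
      ⟨hab, fun h => hca h.symm, fun h => hea h.symm, fun h => hcb h.symm,
        fun h => heb h.symm, hce⟩
    have hsw : Crest.Agent.Helper10.S0453.SwAt (ofSet G a b A) a b c e :=
      (swAt_ofSet_iff hab hA.1 hca hcb hea heb).2 ⟨hc, he.1, he.2⟩
    rw [Crest.Agent.Helper10.S0453.flip_eq hD hsw,
      ofSet_exchange_eq hab hA.1 hc he.1 he.2 (fun h => hca h.symm) (fun h => hea h.symm)
        hcb heb,
      pm2_comm_right a c b e, pm2_comm_right a e b c]

/-- **(J2-graph)**, hypothesis-free. -/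
theorem j2Graph (d : Fin n → ℕ) (f : Finset (Edge n) → ℝ) :
    Crest.Agent.Helper10.S0453.J2Graph d f :=
  Crest.Agent.Helper49.SW.j2Graph_of_model d (fun a b hab => pairClassJ2 d a b hab) f

end Crest.Agent.Helper65.Switch
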