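import Crest.Agent.Helper65.Switch.Final
import Crest.Agent.Helper65.Switch.PairJ2
import Crest.Agent.Helper78.S0453.ThreeBodyFinal
import Crest.Agent.Helper17.SW.TplGraph
import Crest.Agent.Helper38.SW.ProdStmt
import Crest.Agent.Helper18.TPL.Local

/-!
# S0453: the frozen statement from the last open input (helper65, integration)

Everything else being on main ((3B-Om) `Helper78.S0453.three_body`, (J2-graph) `j2Graph`,
(T2-Om) `t2Om`, assembly), the frozen statement S0453 follows from the abstract two-pair lemma
in either of its two transport shapes: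

* `result_of_dia`  : from `Crest.Agent.Helper17.SW.DiaStmt` (diamond fibre, `m = 2`;
  the product case `ProdStmt` is `Crest.Agent.Helper38.SW.prodStmt`);
* `result_of_spec` : from `Crest.Agent.Helper67.SW.TwoPairSpec`.
-/

set_option autoImplicit false

namespace Crest.Agent.Helper65.Switch

open Finset Crest.SwitchChain

/-- **S0453 from the diamond statement** `DiaStmt` (helper17's transport shape). -/
theorem result_of_dia (hD : Crest.Agent.Helper17.SW.DiaStmt) (n : ℕ) (hn : 4 ≤ n)
    (d : Fin n → ℕ) (hd : (realizations d).Nonempty) :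
    (∃ t : ℕ, t ≤ 2 * n ^ 8 ∧ ∀ G ∈ realizations d,
        tvDist (fun G' => (kernel n ^ t) G G') (unifOn (realizations d)) ≤ 1 / 4) ∧
      ∀ f : Finset (Edge n) → ℝ,
        ((realizations d).card : ℝ) * (∑ G ∈ realizations d, f G ^ 2) -
            (∑ G ∈ realizations d, f G) ^ 2 ≤
          24 * (n : ℝ) ^ 2 * (n.choose 4 : ℝ) * (realizations d).card *
            ∑ G ∈ realizations d,
              f G * (f G - ∑ G' ∈ realizations d, kernel n G G' * f G') :=
  result_of_3B_TPL_J2 n hn d hd (Crest.Agent.Helper78.S0453.three_body d)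
    (fun f => Crest.Agent.Helper17.SWT.tplGraph_of Crest.Agent.Helper38.SW.prodStmt hD d f)
    (fun f => j2Graph d f)

/-- **S0453 from the fibre form** `TwoPairSpec` (helper67's transport shape). -/
theorem result_of_spec (hS : Crest.Agent.Helper67.SW.TwoPairSpec) (n : ℕ) (hn : 4 ≤ n)
    (d : Fin n → ℕ) (hd : (realizations d).Nonempty) :
    (∃ t : ℕ, t ≤ 2 * n ^ 8 ∧ ∀ G ∈ realizations d,
        tvDist (fun G' => (kernel n ^ t) G G') (unifOn (realizations d)) ≤ 1 / 4) ∧
      ∀ f : Finset (Edge n) → ℝ,
        ((realizations d).card : ℝ) * (∑ G ∈ realizations d, f G ^ 2) -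
            (∑ G ∈ realizations d, f G) ^ 2 ≤
          24 * (n : ℝ) ^ 2 * (n.choose 4 : ℝ) * (realizations d).card *
            ∑ G ∈ realizations d,
              f G * (f G - ∑ G' ∈ realizations d, kernel n G G' * f G') :=
  result_of_3B_TPL_J2 n hn d hd (Crest.Agent.Helper78.S0453.three_body d)
    (fun f => Crest.Agent.Helper18.TPL.tplGraph_of_spec hS d f)
    (fun f => j2Graph d f)

end Crest.Agent.Helper65.Switch
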