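import Crest.Agent.Helper65.Switch.Connected

/-!
# S0453: glue from the switch-edge energy to the frozen statement

`switchEnergy d f = ∑_{G ∈ Ω} ∑_{G' ∈ Ω, IsSwitch G G'} (f G - f G')²` (ordered switch pairs, i.e. twice
the sum over switch edges).  `result_of_switchEnergy`: the frozen statement S0453 follows from
`N ∑ f² - (∑ f)² ≤ c · N · switchEnergy d f` for any constant `c ≤ n²`.  (helper65)
-/

set_option autoImplicit false

namespace Crest.Agent.Helper65.Switch

open Finset Crest.SwitchChain

variable {n : ℕ}

/-- The energy over ordered switch pairs inside the realizations of `d`. -/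
noncomputable def switchEnergy (d : Fin n → ℕ) (f : Finset (Edge n) → ℝ) : ℝ := by
  classical
  exact ∑ G ∈ realizations d, ∑ G' ∈ (realizations d).filter (fun G' => IsSwitch G G'),
    (f G - f G') ^ 2

lemma switchEnergy_def (d : Fin n → ℕ) (f : Finset (Edge n) → ℝ) [DecidableRel (IsSwitch (n := n))] :
    switchEnergy d f = ∑ G ∈ realizations d,
      ∑ G' ∈ (realizations d).filter (fun G' => IsSwitch G G'), (f G - f G') ^ 2 := by
  unfold switchEnergy
  refine Finset.sum_congr rfl fun G _ => ?_
  refine Finset.sum_congr ?_ fun G' _ => rfl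
  ext G'
  simp only [Finset.mem_filter]

lemma switchEnergy_nonneg (d : Fin n → ℕ) (f : Finset (Edge n) → ℝ) : 0 ≤ switchEnergy d f := by
  classical
  rw [switchEnergy_def]
  exact Finset.sum_nonneg fun G _ => Finset.sum_nonneg fun G' _ => by positivity

/-- The switch energy is dominated by the proposal-count energy. -/
lemma switchEnergy_le (d : Fin n → ℕ) (f : Finset (Edge n) → ℝ) :
    switchEnergy d f ≤ ∑ G ∈ realizations d, ∑ G' ∈ realizations d,
      (proposalCount G G' : ℝ) * (f G - f G') ^ 2 := by
  classical
  rw [switchEnergy_def]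
  refine Finset.sum_le_sum fun G _ => ?_
  rw [Finset.sum_filter]
  refine Finset.sum_le_sum fun G' _ => ?_
  split_ifs with h
  · have h1 : (1 : ℝ) ≤ (proposalCount G G' : ℝ) := by exact_mod_cast one_le_proposalCount h
    nlinarith [sq_nonneg (f G - f G')]
  · positivity

/-- **S0453 from a Poincaré inequality for the switch-edge energy** with any constant `c ≤ n²`. -/
theorem result_of_switchEnergy (n : ℕ) (hn : 4 ≤ n) (d : Fin n → ℕ)
    (hd : (realizations d).Nonempty) (c : ℝ) (hc : c ≤ (n : ℝ) ^ 2)
    (hE : ∀ f : Finset (Edge n) → ℝ,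
        ((realizations d).card : ℝ) * (∑ G ∈ realizations d, f G ^ 2) -
            (∑ G ∈ realizations d, f G) ^ 2 ≤
          c * (realizations d).card * switchEnergy d f) :
    (∃ t : ℕ, t ≤ 2 * n ^ 8 ∧ ∀ G ∈ realizations d,
        tvDist (fun G' => (kernel n ^ t) G G') (unifOn (realizations d)) ≤ 1 / 4) ∧
      ∀ f : Finset (Edge n) → ℝ,
        ((realizations d).card : ℝ) * (∑ G ∈ realizations d, f G ^ 2) -
            (∑ G ∈ realizations d, f G) ^ 2 ≤
          24 * (n : ℝ) ^ 2 * (n.choose 4 : ℝ) * (realizations d).card *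
            ∑ G ∈ realizations d,
              f G * (f G - ∑ G' ∈ realizations d, kernel n G G' * f G') := by
  refine result_of_gap n hn d hd fun f => ?_
  have h1 := hE f
  have h2 := switchEnergy_le d f
  have h3 := switchEnergy_nonneg d f
  have hN : (0 : ℝ) ≤ ((realizations d).card : ℝ) := Nat.cast_nonneg _
  calc ((realizations d).card : ℝ) * (∑ G ∈ realizations d, f G ^ 2) -
            (∑ G ∈ realizations d, f G) ^ 2
      ≤ c * (realizations d).card * switchEnergy d f := h1
    _ ≤ (n : ℝ) ^ 2 * (realizations d).card * switchEnergy d f := by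
        have : 0 ≤ ((realizations d).card : ℝ) * switchEnergy d f := mul_nonneg hN h3
        nlinarith
    _ ≤ _ := by
        have : 0 ≤ (n : ℝ) ^ 2 * (realizations d).card := by positivity
        exact mul_le_mul_of_nonneg_left h2 this

end Crest.Agent.Helper65.Switch
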