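import Crest.Prelude.Def_SwitchChain

/-!
# Kernel facts for the lazy switch chain (`Crest.SwitchChain.kernel`)

Route-independent infrastructure for S0453 (helper65):
* `card_pmSet` : a four-element vertex set has exactly three perfect matchings;
* `pm_disjoint` : two distinct perfect matchings of the same set are disjoint;
* `switchResult_mem_realizations` : a proposal never leaves `realizations d`;
* `proposalCount_symm`, `sum_proposalCount` : symmetry and the total number `6 * C(n,4)` of proposals;
* `kernel_symm`, `kernel_nonneg`, `kernel_row_sum`, `kernel_eq_zero_of_not_mem`, `kernel_diag`.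
-/

set_option autoImplicit false

namespace Crest.Agent.Helper65.Switch

open Finset Crest.SwitchChain

variable {n : ℕ}

/-- The edge `{x, y}`. -/
def mkE (x y : Fin n) (h : x ≠ y) : Edge n := ⟨s(x, y), by simpa using h⟩

@[simp] lemma mem_mkE {x y : Fin n} (h : x ≠ y) (v : Fin n) :
    v ∈ (mkE x y h).1 ↔ v = x ∨ v = y := by
  simp [mkE]

lemma mkE_eq_iff {x y z w : Fin n} (h : x ≠ y) (h' : z ≠ w) :
    mkE x y h = mkE z w h' ↔ (x = z ∧ y = w) ∨ (x = w ∧ y = z) := by
  simp [mkE, Subtype.ext_iff]

lemma edge_eq_mkE (e : Edge n) {x y : Fin n} (hx : x ∈ e.1) (hy : y ∈ e.1) (h : x ≠ y) :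
    e = mkE x y h := by
  apply Subtype.ext
  exact (Sym2.mem_and_mem_iff h).1 ⟨hx, hy⟩

/-- every edge is some `mkE x y`. -/
lemma exists_eq_mkE (e : Edge n) : ∃ (x y : Fin n) (h : x ≠ y), e = mkE x y h := by
  obtain ⟨e, he⟩ := e
  induction e using Sym2.ind with
  | _ x y =>
    have h : x ≠ y := by simpa using he
    exact ⟨x, y, h, rfl⟩

lemma mem_pmSet {S : Finset (Fin n)} {F : Finset (Edge n)} :
    F ∈ pmSet S ↔ F.card = 2 ∧ (∀ e ∈ F, ∀ v : Fin n, v ∈ e.1 → v ∈ S) ∧
      ∀ v ∈ S, (F.filter fun e => v ∈ e.1).card = 1 := by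
  show F ∈ ((univ : Finset (Edge n)).powersetCard 2).filter (fun F =>
      (∀ e ∈ F, ∀ v : Fin n, v ∈ e.1 → v ∈ S) ∧
        ∀ v ∈ S, (F.filter fun e => v ∈ e.1).card = 1) ↔ _
  rw [Finset.mem_filter, Finset.mem_powersetCard]
  simp only [Finset.subset_univ, true_and]

/-- The incidence count of a perfect matching of `S` at a vertex. -/
lemma pm_inc {S : Finset (Fin n)} {F : Finset (Edge n)} (hF : F ∈ pmSet S) (v : Fin n) :
    (F.filter fun e => v ∈ e.1).card = if v ∈ S then 1 else 0 := by
  obtain ⟨-, hends, hcov⟩ := mem_pmSet.1 hF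
  split_ifs with hv
  · exact hcov v hv
  · rw [Finset.card_eq_zero, Finset.filter_eq_empty_iff]
    intro e he hve
    exact hv (hends e he v hve)

/-- Two perfect matchings of the same vertex set sharing an edge are equal. -/
lemma pm_eq_of_common_edge {S : Finset (Fin n)} {F F' : Finset (Edge n)}
    (hF : F ∈ pmSet S) (hF' : F' ∈ pmSet S) {e : Edge n} (he : e ∈ F) (he' : e ∈ F') :
    F = F' := by
  obtain ⟨hc, hends, hcov⟩ := mem_pmSet.1 hF
  obtain ⟨hc', hends', hcov'⟩ := mem_pmSet.1 hF'
  -- the other edge of `F`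
  obtain ⟨a, b, hab, hFab⟩ := Finset.card_eq_two.1 hc
  obtain ⟨a', b', hab', hFab'⟩ := Finset.card_eq_two.1 hc'
  -- general claim: if F = {e, e₁}, F' = {e, e₁'} with e₁ ≠ e, e₁' ≠ e then e₁ = e₁'
  have key : ∀ e₁ e₁' : Edge n, e₁ ≠ e → e₁' ≠ e → e₁ ∈ F → e₁' ∈ F' →
      (∀ g ∈ F', g = e ∨ g = e₁') → e₁ = e₁' := by
    intro e₁ e₁' h1 h1' m1 m1' hF'all
    obtain ⟨c, d, hcd, rfl⟩ := exists_eq_mkE e₁
    -- c and d are not on e
    have hnot : ∀ v : Fin n, v ∈ (mkE c d hcd).1 → v ∉ e.1 := by
      intro v hv hve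
      have hvS : v ∈ S := hends _ m1 v hv
      have h2 : ({e, mkE c d hcd} : Finset (Edge n)) ⊆ F.filter fun g => v ∈ g.1 := by
        intro g hg
        simp only [mem_insert, mem_singleton] at hg
        rcases hg with rfl | rfl
        · exact Finset.mem_filter.2 ⟨he, hve⟩
        · exact Finset.mem_filter.2 ⟨m1, hv⟩
      have h3 := Finset.card_le_card h2
      rw [hcov v hvS, Finset.card_pair (Ne.symm h1)] at h3
      omega
    -- hence they are on e₁'
    have hon : ∀ v : Fin n, v ∈ (mkE c d hcd).1 → v ∈ e₁'.1 := by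
      intro v hv
      have hvS : v ∈ S := hends _ m1 v hv
      have hpos : 0 < (F'.filter fun g => v ∈ g.1).card := by rw [hcov' v hvS]; norm_num
      obtain ⟨g, hg⟩ := Finset.card_pos.1 hpos
      rw [Finset.mem_filter] at hg
      rcases hF'all g hg.1 with rfl | rfl
      · exact absurd hg.2 (hnot v hv)
      · exact hg.2
    have hc1 : c ∈ e₁'.1 := hon c (by simp)
    have hd1 : d ∈ e₁'.1 := hon d (by simp)
    exact (edge_eq_mkE e₁' hc1 hd1 hcd).symm
  -- normalise F = {e, e₁}, F' = {e, e₁'}
  have hFe : ∃ e₁, e₁ ≠ e ∧ F = {e, e₁} := by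
    rw [hFab] at he
    simp only [mem_insert, mem_singleton] at he
    rcases he with rfl | rfl
    · exact ⟨b, Ne.symm hab, hFab⟩
    · exact ⟨a, hab, by rw [hFab, Finset.pair_comm]⟩
  have hFe' : ∃ e₁', e₁' ≠ e ∧ F' = {e, e₁'} := by
    rw [hFab'] at he'
    simp only [mem_insert, mem_singleton] at he'
    rcases he' with rfl | rfl
    · exact ⟨b', Ne.symm hab', hFab'⟩
    · exact ⟨a', hab', by rw [hFab', Finset.pair_comm]⟩
  obtain ⟨e₁, h1, hF1⟩ := hFe
  obtain ⟨e₁', h1', hF1'⟩ := hFe'
  have : e₁ = e₁' := by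
    apply key e₁ e₁' h1 h1'
    · rw [hF1]; simp
    · rw [hF1']; simp
    · intro g hg; rw [hF1'] at hg; simpa using hg
  rw [hF1, hF1', this]

/-- The matching `{xy, zw}`. -/
def pm2 (x y z w : Fin n) (hxy : x ≠ y) (hzw : z ≠ w) : Finset (Edge n) :=
  {mkE x y hxy, mkE z w hzw}

lemma pm2_mem {S : Finset (Fin n)} {x y z w : Fin n}
    (hxy : x ≠ y) (hxz : x ≠ z) (hxw : x ≠ w) (hyz : y ≠ z) (hyw : y ≠ w) (hzw : z ≠ w)
    (hS : ∀ v, v ∈ S ↔ v = x ∨ v = y ∨ v = z ∨ v = w) : pm2 x y z w hxy hzw ∈ pmSet S := by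
  have hne : mkE x y hxy ≠ mkE z w hzw := by
    rw [Ne, mkE_eq_iff]; tauto
  rw [mem_pmSet]
  refine ⟨?_, ?_, ?_⟩
  · unfold pm2; rw [Finset.card_pair hne]
  · intro e he v hv
    simp only [pm2, mem_insert, mem_singleton] at he
    rw [hS]
    rcases he with rfl | rfl
    · rw [mem_mkE] at hv; tauto
    · rw [mem_mkE] at hv; tauto
  · intro v hv
    rw [hS] at hv
    have h1 : (pm2 x y z w hxy hzw).filter (fun e => v ∈ e.1) =
        if v = x ∨ v = y then {mkE x y hxy} else {mkE z w hzw} := by
      unfold pm2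
      rw [Finset.filter_insert, Finset.filter_singleton]
      simp only [mem_mkE]
      have hx : v = x → ¬ (v = z ∨ v = w) := by rintro rfl; tauto
      have hy : v = y → ¬ (v = z ∨ v = w) := by rintro rfl; tauto
      by_cases h : v = x ∨ v = y
      · have h' : ¬ (v = z ∨ v = w) := by rcases h with h | h; exacts [hx h, hy h]
        simp [h, h']
      · have h' : v = z ∨ v = w := by tauto
        simp [h, h']
    rw [h1]
    split_ifs <;> simp

/-- The three perfect matchings of a four-element set. -/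
lemma pm_form {x y z w : Fin n}
    (hxy : x ≠ y) (hxz : x ≠ z) (hxw : x ≠ w) (hyz : y ≠ z) (hyw : y ≠ w) (hzw : z ≠ w)
    (F : Finset (Edge n)) :
    F ∈ pmSet ({x, y, z, w} : Finset (Fin n)) ↔
      F = pm2 x y z w hxy hzw ∨ F = pm2 x z y w hxz hyw ∨ F = pm2 x w y z hxw hyz := by
  have m1 : pm2 x y z w hxy hzw ∈ pmSet ({x, y, z, w} : Finset (Fin n)) :=
    pm2_mem hxy hxz hxw hyz hyw hzw (by intro v; simp)
  have m2 : pm2 x z y w hxz hyw ∈ pmSet ({x, y, z, w} : Finset (Fin n)) :=
    pm2_mem hxz hxy hxw hyz.symm hzw hyw (by intro v; simp; tauto)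
  have m3 : pm2 x w y z hxw hyz ∈ pmSet ({x, y, z, w} : Finset (Fin n)) :=
    pm2_mem hxw hxy hxz hyw.symm hzw.symm hyz (by intro v; simp; tauto)
  constructor
  · intro hF
    obtain ⟨hc, hends, hcov⟩ := mem_pmSet.1 hF
    have hpos : 0 < (F.filter fun g => x ∈ g.1).card := by rw [hcov x (by simp)]; norm_num
    obtain ⟨e, he⟩ := Finset.card_pos.1 hpos
    rw [Finset.mem_filter] at he
    obtain ⟨p, q, hpq, rfl⟩ := exists_eq_mkE e
    -- WLOG p = x
    have hx : x = p ∨ x = q := by simpa using he.2
    have hpS := hends _ he.1 p (by simp)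
    have hqS := hends _ he.1 q (by simp)
    simp only [mem_insert, mem_singleton] at hpS hqS
    have hcase : mkE p q hpq = mkE x y hxy ∨ mkE p q hpq = mkE x z hxz ∨
        mkE p q hpq = mkE x w hxw := by
      simp only [mkE_eq_iff]
      rcases hx with rfl | rfl
      · rcases hqS with h | h | h | h
        · exact absurd h.symm hpq
        · left; left; exact ⟨rfl, h⟩
        · right; left; left; exact ⟨rfl, h⟩
        · right; right; left; exact ⟨rfl, h⟩
      · rcases hpS with h | h | h | h
        · exact absurd h hpq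
        · left; right; exact ⟨h, rfl⟩
        · right; left; right; exact ⟨h, rfl⟩
        · right; right; right; exact ⟨h, rfl⟩
    rcases hcase with h | h | h
    · left; exact pm_eq_of_common_edge hF m1 he.1 (by rw [h]; simp [pm2])
    · right; left; exact pm_eq_of_common_edge hF m2 he.1 (by rw [h]; simp [pm2])
    · right; right; exact pm_eq_of_common_edge hF m3 he.1 (by rw [h]; simp [pm2])
  · rintro (rfl | rfl | rfl)
    exacts [m1, m2, m3]

/-- A four-element vertex set has exactly three perfect matchings. -/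
lemma card_pmSet {S : Finset (Fin n)} (hS : S.card = 4) : (pmSet S).card = 3 := by
  obtain ⟨x, y, z, w, hxy, hxz, hxw, hyz, hyw, hzw, rfl⟩ := Finset.card_eq_four.1 hS
  have h : pmSet ({x, y, z, w} : Finset (Fin n)) =
      {pm2 x y z w hxy hzw, pm2 x z y w hxz hyw, pm2 x w y z hxw hyz} := by
    ext F
    simp only [mem_insert, mem_singleton]
    exact pm_form hxy hxz hxw hyz hyw hzw F
  have e12 : mkE x y hxy ∉ pm2 x z y w hxz hyw := by
    simp only [pm2, mem_insert, mem_singleton, mkE_eq_iff]; tauto
  have e13 : mkE x y hxy ∉ pm2 x w y z hxw hyz := by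
    simp only [pm2, mem_insert, mem_singleton, mkE_eq_iff]; tauto
  have e23 : mkE x z hxz ∉ pm2 x w y z hxw hyz := by
    simp only [pm2, mem_insert, mem_singleton, mkE_eq_iff]; tauto
  have i1 : mkE x y hxy ∈ pm2 x y z w hxy hzw := by simp [pm2]
  have i2 : mkE x z hxz ∈ pm2 x z y w hxz hyw := by simp [pm2]
  rw [h, Finset.card_insert_of_notMem, Finset.card_insert_of_notMem, Finset.card_singleton]
  · simp only [mem_singleton]
    intro hh; exact e23 (hh ▸ i2)
  · simp only [mem_insert, mem_singleton]
    rintro (hh | hh)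
    · exact e12 (hh ▸ i1)
    · exact e13 (hh ▸ i1)

/-- Two distinct perfect matchings of the same set are disjoint. -/
lemma pm_disjoint {S : Finset (Fin n)} {F F' : Finset (Edge n)}
    (hF : F ∈ pmSet S) (hF' : F' ∈ pmSet S) (hne : F ≠ F') : Disjoint F F' := by
  rw [Finset.disjoint_left]
  intro e he he'
  exact hne (pm_eq_of_common_edge hF hF' he he')

/-! ### `rfl`-lemmas for the Prelude definitions

Downstream files should use these (or `show`) instead of `unfold` / `simp [X]` / `rw [X]` with a
Prelude definition name, so that no module realises an auto-generated equation lemma of the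
Prelude. -/

lemma deg_def (E : Finset (Edge n)) (v : Fin n) :
    deg E v = (E.filter fun e => v ∈ e.1).card := rfl

lemma switchResult_def (E F F' : Finset (Edge n)) :
    switchResult E F F' = if F ⊆ E ∧ Disjoint F' E then E \ F ∪ F' else E := rfl

lemma proposalCount_def (E E' : Finset (Edge n)) :
    proposalCount E E' = ∑ S ∈ (univ : Finset (Fin n)).powersetCard 4,
      ∑ F ∈ pmSet S, ∑ F' ∈ (pmSet S).erase F, if switchResult E F F' = E' then 1 else 0 := rfl

lemma tvDist_def {α : Type*} [Fintype α] (μ ν : α → ℝ) :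
    tvDist μ ν = (∑ a, |μ a - ν a|) / 2 := rfl

lemma unifOn_apply {α : Type*} [DecidableEq α] (Ω : Finset α) (a : α) :
    unifOn Ω a = if a ∈ Ω then 1 / (Ω.card : ℝ) else 0 := rfl

/-! ### Proposals preserve degrees -/

lemma deg_switch {S : Finset (Fin n)} {E F F' : Finset (Edge n)}
    (hF : F ∈ pmSet S) (hF' : F' ∈ pmSet S) (h1 : F ⊆ E) (h2 : Disjoint F' E) (v : Fin n) :
    deg (E \ F ∪ F') v = deg E v := by
  rw [deg_def, deg_def]
  have hd : Disjoint (E \ F) F' :=
    Finset.disjoint_of_subset_left Finset.sdiff_subset h2.symm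
  rw [Finset.filter_union, Finset.card_union_of_disjoint (Finset.disjoint_filter_filter hd)]
  have hE : (E.filter fun e => v ∈ e.1).card =
      ((E \ F).filter fun e => v ∈ e.1).card + (F.filter fun e => v ∈ e.1).card := by
    conv_lhs => rw [← Finset.sdiff_union_of_subset h1]
    rw [Finset.filter_union,
      Finset.card_union_of_disjoint (Finset.disjoint_filter_filter Finset.sdiff_disjoint)]
  rw [hE, pm_inc hF v, pm_inc hF' v]

lemma deg_switchResult {S : Finset (Fin n)} {E F F' : Finset (Edge n)}
    (hF : F ∈ pmSet S) (hF' : F' ∈ pmSet S) (v : Fin n) :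
    deg (switchResult E F F') v = deg E v := by
  rw [switchResult_def]
  split_ifs with h
  · exact deg_switch hF hF' h.1 h.2 v
  · rfl

lemma mem_realizations {d : Fin n → ℕ} {E : Finset (Edge n)} :
    E ∈ realizations d ↔ ∀ v, deg E v = d v := by
  show E ∈ (univ : Finset (Finset (Edge n))).filter (fun E => ∀ v, deg E v = d v) ↔ _
  rw [Finset.mem_filter]
  simp only [Finset.mem_univ, true_and]

lemma switchResult_mem_realizations {d : Fin n → ℕ} {S : Finset (Fin n)}
    {E F F' : Finset (Edge n)} (hF : F ∈ pmSet S) (hF' : F' ∈ pmSet S) :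
    switchResult E F F' ∈ realizations d ↔ E ∈ realizations d := by
  simp only [mem_realizations, deg_switchResult hF hF']

/-! ### Reversibility of a proposal -/

lemma switchResult_rev {E E' F F' : Finset (Edge n)} (hFF' : Disjoint F F') (hne : E ≠ E')
    (h : switchResult E F F' = E') : switchResult E' F' F = E := by
  rw [switchResult_def] at h
  split_ifs at h with hc
  · obtain ⟨h1, h2⟩ := hc
    subst h
    have hsub : F' ⊆ E \ F ∪ F' := Finset.subset_union_right
    have hdisj : Disjoint F (E \ F ∪ F') := by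
      rw [Finset.disjoint_union_right]
      exact ⟨Finset.disjoint_sdiff, hFF'⟩
    rw [switchResult_def, if_pos ⟨hsub, hdisj⟩]
    ext e
    simp only [mem_union, mem_sdiff]
    constructor
    · rintro (⟨(⟨he, -⟩ | he), hn⟩ | he)
      · exact he
      · exact absurd he hn
      · exact h1 he
    · intro he
      by_cases hF : e ∈ F
      · right; exact hF
      · left
        exact ⟨Or.inl ⟨he, hF⟩, fun he' => (Finset.disjoint_left.1 h2 he') he⟩
  · exact absurd h hne

lemma switchResult_symm {E E' F F' : Finset (Edge n)} (hFF' : Disjoint F F') (hne : E ≠ E') :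
    switchResult E F F' = E' ↔ switchResult E' F' F = E :=
  ⟨switchResult_rev hFF' hne, switchResult_rev hFF'.symm (Ne.symm hne)⟩

/-! ### The proposal count -/

lemma proposalCount_symm (E E' : Finset (Edge n)) : proposalCount E E' = proposalCount E' E := by
  by_cases hne : E = E'
  · rw [hne]
  rw [proposalCount_def, proposalCount_def]
  refine Finset.sum_congr rfl fun S _ => ?_
  -- rewrite both sides as sums over pairs with an indicator
  have key : ∀ (A B : Finset (Edge n)) , (∑ F ∈ pmSet S, ∑ F' ∈ (pmSet S).erase F,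
      (if switchResult A F F' = B then 1 else 0 : ℕ)) =
      ∑ F ∈ pmSet S, ∑ F' ∈ pmSet S,
        (if F' ≠ F then (if switchResult A F F' = B then 1 else 0) else 0 : ℕ) := by
    intro A B
    refine Finset.sum_congr rfl fun F _ => ?_
    rw [← Finset.filter_ne' (pmSet S) F, Finset.sum_filter]
  rw [key, key, Finset.sum_comm]
  refine Finset.sum_congr rfl fun F' hF' => Finset.sum_congr rfl fun F hF => ?_
  by_cases h : F' = F
  · simp [h]
  · have h' : F ≠ F' := fun hh => h hh.symm
    rw [if_pos h, if_pos h']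
    have := switchResult_symm (pm_disjoint hF hF' h') hne
    by_cases hs : switchResult E F F' = E'
    · rw [if_pos hs, if_pos (this.1 hs)]
    · rw [if_neg hs, if_neg (fun hh => hs (this.2 hh))]

/-- The total number of proposals from any graph is `6 * C(n,4)`. -/
lemma sum_proposalCount (E : Finset (Edge n)) :
    ∑ E' : Finset (Edge n), proposalCount E E' = 6 * n.choose 4 := by
  simp only [proposalCount_def]
  rw [Finset.sum_comm]
  have h : ∀ S ∈ (univ : Finset (Fin n)).powersetCard 4,
      (∑ E' : Finset (Edge n), ∑ F ∈ pmSet S, ∑ F' ∈ (pmSet S).erase F,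
        (if switchResult E F F' = E' then 1 else 0 : ℕ)) = 6 := by
    intro S hS
    rw [Finset.sum_comm]
    have h3 : (pmSet S).card = 3 := card_pmSet (Finset.mem_powersetCard.1 hS).2
    have : ∀ F ∈ pmSet S, (∑ E' : Finset (Edge n), ∑ F' ∈ (pmSet S).erase F,
        (if switchResult E F F' = E' then 1 else 0 : ℕ)) = 2 := by
      intro F hF
      rw [Finset.sum_comm]
      simp only [Finset.sum_ite_eq, Finset.mem_univ, if_true, Finset.sum_const, smul_eq_mul,
        mul_one]
      rw [Finset.card_erase_of_mem hF, h3]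
    rw [Finset.sum_congr rfl this]
    simp [h3]
  rw [Finset.sum_congr rfl h]
  simp [Finset.card_powersetCard, mul_comm]

/-- A proposal from a realization never leads outside the realizations. -/
lemma proposalCount_eq_zero_of_not_mem {d : Fin n → ℕ} {E E' : Finset (Edge n)}
    (hE : E ∈ realizations d) (hE' : E' ∉ realizations d) : proposalCount E E' = 0 := by
  rw [proposalCount_def]
  refine Finset.sum_eq_zero fun S _ => Finset.sum_eq_zero fun F hF => Finset.sum_eq_zero
    fun F' hF' => ?_
  rw [if_neg]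
  intro h
  apply hE'
  rw [← h]
  exact (switchResult_mem_realizations hF (Finset.mem_of_mem_erase hF')).2 hE

/-! ### The kernel -/

lemma kernel_apply (E E' : Finset (Edge n)) :
    kernel n E E' = (if E = E' then 1 / 2 else 0) +
      (proposalCount E E' : ℝ) / (12 * (n.choose 4 : ℝ)) := rfl

lemma kernel_symm (E E' : Finset (Edge n)) : kernel n E E' = kernel n E' E := by
  rw [kernel_apply, kernel_apply, proposalCount_symm E E']
  congr 1
  by_cases h : E = E'
  · simp [h]
  · rw [if_neg h, if_neg (fun hh => h hh.symm)]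

lemma kernel_nonneg (E E' : Finset (Edge n)) : 0 ≤ kernel n E E' := by
  rw [kernel_apply]
  positivity

lemma kernel_diag (E : Finset (Edge n)) : 1 / 2 ≤ kernel n E E := by
  rw [kernel_apply, if_pos rfl]
  have : (0 : ℝ) ≤ (proposalCount E E : ℝ) / (12 * (n.choose 4 : ℝ)) := by positivity
  linarith

lemma kernel_row_sum (hn : 4 ≤ n) (E : Finset (Edge n)) :
    ∑ E' : Finset (Edge n), kernel n E E' = 1 := by
  have hC : (0 : ℝ) < (n.choose 4 : ℝ) := by exact_mod_cast Nat.choose_pos hn
  simp only [kernel_apply]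
  rw [Finset.sum_add_distrib, ← Finset.sum_div, ← Nat.cast_sum, sum_proposalCount]
  simp only [Finset.sum_ite_eq, Finset.mem_univ, if_true]
  push_cast
  field_simp
  ring

lemma kernel_eq_zero_of_not_mem {d : Fin n → ℕ} {E E' : Finset (Edge n)}
    (hE : E ∈ realizations d) (hE' : E' ∉ realizations d) : kernel n E E' = 0 := by
  rw [kernel_apply, proposalCount_eq_zero_of_not_mem hE hE', if_neg]
  · simp
  · rintro rfl; exact hE' hE

/-- Row sums over the realizations. -/
lemma kernel_row_sum_realizations (hn : 4 ≤ n) {d : Fin n → ℕ} {E : Finset (Edge n)}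
    (hE : E ∈ realizations d) : ∑ E' ∈ realizations d, kernel n E E' = 1 := by
  rw [← kernel_row_sum hn E]
  exact Finset.sum_subset (Finset.subset_univ _)
    fun E' _ hE' => kernel_eq_zero_of_not_mem hE hE'

end Crest.Agent.Helper65.Switch
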