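import Mathlib

/-!
# L² mixing of a lazy symmetric stochastic matrix from a Poincaré inequality

Abstract finite linear algebra (helper65), used for S0453:
if `K` is a symmetric, entrywise nonnegative matrix with unit row sums and diagonal `≥ 1/2`, and
`γ ‖f‖² ≤ ⟨f, (I - K) f⟩` for all mean-zero `f`, then
`(∑ j, |K^t i j - 1/N|)² ≤ N (1 - γ)^t`.
-/

set_option autoImplicit false

namespace Crest.Agent.Helper65.Switch

open Finset

variable {ι : Type*} [Fintype ι] [DecidableEq ι]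

omit [DecidableEq ι] in
/-- Jensen's inequality for a probability row. -/
lemma sq_sum_le_sum_sq (w f : ι → ℝ) (hw : ∀ j, 0 ≤ w j) (hsum : ∑ j, w j = 1) :
    (∑ j, w j * f j) ^ 2 ≤ ∑ j, w j * f j ^ 2 := by
  set m := ∑ j, w j * f j with hm
  have h : 0 ≤ ∑ j, w j * (f j - m) ^ 2 :=
    Finset.sum_nonneg fun j _ => mul_nonneg (hw j) (sq_nonneg _)
  have h2 : ∑ j, w j * (f j - m) ^ 2 =
      ∑ j, w j * f j ^ 2 - 2 * m * ∑ j, w j * f j + m ^ 2 * ∑ j, w j := by
    have e : ∀ j, w j * (f j - m) ^ 2 = w j * f j ^ 2 - 2 * m * (w j * f j) + m ^ 2 * w j :=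
      fun j => by ring
    simp only [e, Finset.sum_add_distrib, Finset.sum_sub_distrib, Finset.mul_sum]
  rw [h2, hsum, ← hm] at h
  nlinarith [h]

omit [DecidableEq ι] in
/-- A symmetric stochastic matrix is an `L²` contraction. -/
lemma stoch_contract (M : Matrix ι ι ℝ) (hsym : ∀ i j, M i j = M j i) (hnn : ∀ i j, 0 ≤ M i j)
    (hrow : ∀ i, ∑ j, M i j = 1) (f : ι → ℝ) :
    ∑ i, (∑ j, M i j * f j) ^ 2 ≤ ∑ i, f i ^ 2 := by
  calc ∑ i, (∑ j, M i j * f j) ^ 2 ≤ ∑ i, ∑ j, M i j * f j ^ 2 :=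
        Finset.sum_le_sum fun i _ => sq_sum_le_sum_sq (M i) f (hnn i) (hrow i)
    _ = ∑ j, ∑ i, M i j * f j ^ 2 := Finset.sum_comm
    _ = ∑ j, f j ^ 2 := by
        refine Finset.sum_congr rfl fun j _ => ?_
        rw [← Finset.sum_mul]
        have : ∑ i, M i j = 1 := by
          rw [← hrow j]; exact Finset.sum_congr rfl fun i _ => hsym i j
        rw [this, one_mul]

/-- For a lazy symmetric stochastic matrix, `‖K f‖² ≤ ⟨f, K f⟩`. -/
lemma lazy_contract (K : Matrix ι ι ℝ) (hsym : ∀ i j, K i j = K j i) (hnn : ∀ i j, 0 ≤ K i j)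
    (hrow : ∀ i, ∑ j, K i j = 1) (hlazy : ∀ i, 1 / 2 ≤ K i i) (f : ι → ℝ) :
    ∑ i, (∑ j, K i j * f j) ^ 2 ≤ ∑ i, f i * ∑ j, K i j * f j := by
  -- M = 2K - I
  set M : Matrix ι ι ℝ := fun i j => 2 * K i j - (if i = j then 1 else 0) with hM
  have hMsym : ∀ i j, M i j = M j i := by
    intro i j
    simp only [hM]
    rw [hsym i j]
    by_cases h : i = j
    · simp [h]
    · rw [if_neg h, if_neg (fun hh => h hh.symm)]
  have hMnn : ∀ i j, 0 ≤ M i j := by
    intro i j
    simp only [hM]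
    by_cases h : i = j
    · subst h
      have := hlazy i
      simp only [if_true]
      linarith
    · rw [if_neg h]
      have := hnn i j
      linarith
  have hMrow : ∀ i, ∑ j, M i j = 1 := by
    intro i
    simp only [hM]
    rw [Finset.sum_sub_distrib, ← Finset.mul_sum, hrow i]
    simp
    norm_num
  have hMf : ∀ i, ∑ j, M i j * f j = 2 * (∑ j, K i j * f j) - f i := by
    intro i
    simp only [hM, sub_mul, Finset.sum_sub_distrib, Finset.mul_sum]
    congr 1
    · refine Finset.sum_congr rfl fun j _ => ?_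
      ring
    · simp
  have hc := stoch_contract M hMsym hMnn hMrow f
  have hid : ∑ i, f i * ∑ j, K i j * f j - ∑ i, (∑ j, K i j * f j) ^ 2 =
      (∑ i, f i ^ 2 - ∑ i, (∑ j, M i j * f j) ^ 2) / 4 := by
    rw [← Finset.sum_sub_distrib, ← Finset.sum_sub_distrib, Finset.sum_div]
    refine Finset.sum_congr rfl fun i _ => ?_
    rw [hMf i]
    ring
  linarith

/-- **L² mixing from a Poincaré inequality** for a lazy symmetric stochastic matrix. -/
theorem l2_mixing (K : Matrix ι ι ℝ) (hsym : ∀ i j, K i j = K j i) (hnn : ∀ i j, 0 ≤ K i j)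
    (hrow : ∀ i, ∑ j, K i j = 1) (hlazy : ∀ i, 1 / 2 ≤ K i i) (γ : ℝ) (hγ1 : γ ≤ 1)
    (hP : ∀ f : ι → ℝ, ∑ i, f i = 0 →
      γ * ∑ i, f i ^ 2 ≤ ∑ i, f i * (f i - ∑ j, K i j * f j))
    (t : ℕ) (i : ι) :
    (∑ j, |(K ^ t) i j - 1 / (Fintype.card ι : ℝ)|) ^ 2 ≤
      (Fintype.card ι : ℝ) * (1 - γ) ^ t := by
  classical
  have hN : (0 : ℝ) < (Fintype.card ι : ℝ) := by
    exact_mod_cast Fintype.card_pos_iff.2 ⟨i⟩
  set N : ℝ := (Fintype.card ι : ℝ) with hNdef
  -- the deviation from uniform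
  set h : ℕ → ι → ℝ := fun t j => (K ^ t) i j - 1 / N with hh
  -- row sums of powers
  have hsum : ∀ t, ∑ j, (K ^ t) i j = 1 := by
    intro t
    induction t with
    | zero => simp [Matrix.one_apply]
    | succ t ih =>
      simp only [pow_succ, Matrix.mul_apply]
      rw [Finset.sum_comm]
      calc ∑ k, ∑ j, (K ^ t) i k * K k j = ∑ k, (K ^ t) i k := by
            refine Finset.sum_congr rfl fun k _ => ?_
            rw [← Finset.mul_sum, hrow k, mul_one]
        _ = 1 := ih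
  have hconst : ∑ _j : ι, (1 / N) = 1 := by
    rw [Finset.sum_const, Finset.card_univ, nsmul_eq_mul, ← hNdef]
    field_simp
  have hmean : ∀ t, ∑ j, h t j = 0 := by
    intro t
    simp only [hh]
    rw [Finset.sum_sub_distrib, hsum t, hconst, sub_self]
  -- evolution
  have hstep : ∀ t j, h (t + 1) j = ∑ k, K j k * h t k := by
    intro t j
    simp only [hh, pow_succ, Matrix.mul_apply, mul_sub, Finset.sum_sub_distrib]
    congr 1
    · refine Finset.sum_congr rfl fun k _ => ?_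
      rw [hsym j k, mul_comm]
    · rw [← Finset.sum_mul, hrow j, one_mul]
  -- contraction
  have hγ0 : 0 ≤ 1 - γ := by linarith
  have hcontr : ∀ t, ∑ j, h (t + 1) j ^ 2 ≤ (1 - γ) * ∑ j, h t j ^ 2 := by
    intro t
    have h1 := lazy_contract K hsym hnn hrow hlazy (h t)
    have h2 := hP (h t) (hmean t)
    have h3 : ∑ j, h t j * (h t j - ∑ k, K j k * h t k) =
        ∑ j, h t j ^ 2 - ∑ j, h t j * ∑ k, K j k * h t k := by
      rw [← Finset.sum_sub_distrib]
      refine Finset.sum_congr rfl fun j _ => ?_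
      ring
    have h4 : ∑ j, h (t + 1) j ^ 2 = ∑ j, (∑ k, K j k * h t k) ^ 2 :=
      Finset.sum_congr rfl fun j _ => by rw [hstep t j]
    rw [h4]
    linarith
  -- initial condition
  have hinit : ∑ j, h 0 j ^ 2 ≤ 1 := by
    have : ∑ j, h 0 j ^ 2 = 1 - 1 / N := by
      simp only [hh, pow_zero, Matrix.one_apply]
      have e : ∀ j : ι, ((if i = j then (1 : ℝ) else 0) - 1 / N) ^ 2 =
          (if i = j then (1 : ℝ) else 0) * (1 - 2 / N) + (1 / N) * (1 / N) := by
        intro j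
        by_cases hij : i = j
        · simp only [hij, if_true]; ring
        · simp only [hij, if_false]; ring
      rw [Finset.sum_congr rfl fun j _ => e j, Finset.sum_add_distrib, ← Finset.sum_mul,
        ← Finset.sum_mul, hconst]
      simp only [Finset.sum_ite_eq, Finset.mem_univ, if_true]
      ring
    rw [this]
    have : 0 ≤ 1 / N := by positivity
    linarith
  have hdecay : ∀ t, ∑ j, h t j ^ 2 ≤ (1 - γ) ^ t := by
    intro t
    induction t with
    | zero => simpa using hinit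
    | succ t ih =>
      calc ∑ j, h (t + 1) j ^ 2 ≤ (1 - γ) * ∑ j, h t j ^ 2 := hcontr t
        _ ≤ (1 - γ) * (1 - γ) ^ t := mul_le_mul_of_nonneg_left ih hγ0
        _ = (1 - γ) ^ (t + 1) := by ring
  -- Cauchy–Schwarz
  have hcs : (∑ j, |h t j|) ^ 2 ≤ N * ∑ j, |h t j| ^ 2 := by
    have := sq_sum_le_card_mul_sum_sq (s := (Finset.univ : Finset ι)) (f := fun j => |h t j|)
    simpa [hNdef] using this
  calc (∑ j, |(K ^ t) i j - 1 / N|) ^ 2 = (∑ j, |h t j|) ^ 2 := rfl
    _ ≤ N * ∑ j, |h t j| ^ 2 := hcs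
    _ = N * ∑ j, h t j ^ 2 := by simp only [sq_abs]
    _ ≤ N * (1 - γ) ^ t := mul_le_mul_of_nonneg_left (hdecay t) hN.le

end Crest.Agent.Helper65.Switch
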