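import Crest.Agent.Helper65.Switch.Kernel
import Crest.Agent.Helper65.Switch.L2Mix

/-!
# S0453: the Poincaré inequality implies the mixing bound

`mixing_of_poincare` : part 2 of the frozen statement S0453 (verbatim, as a hypothesis) implies
part 1 (verbatim), with `t = 2 n ^ 8`.  Route-independent (helper65).
-/

set_option autoImplicit false

namespace Crest.Agent.Helper65.Switch

open Finset Crest.SwitchChain

variable {n : ℕ}

/-- The kernel restricted to the realizations of `d`. -/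
noncomputable def Kr (d : Fin n → ℕ) : Matrix ↥(realizations d) ↥(realizations d) ℝ :=
  fun a b => kernel n a.1 b.1

lemma pow_restrict (d : Fin n → ℕ) (t : ℕ) (a : ↥(realizations d)) :
    (∀ E' : Finset (Edge n), E' ∉ realizations d → (kernel n ^ t) a.1 E' = 0) ∧
      ∀ b : ↥(realizations d), (kernel n ^ t) a.1 b.1 = (Kr d ^ t) a b := by
  induction t with
  | zero =>
    refine ⟨fun E' hE' => ?_, fun b => ?_⟩
    · rw [pow_zero, Matrix.one_apply, if_neg]
      rintro rfl; exact hE' a.2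
    · rw [pow_zero, pow_zero, Matrix.one_apply, Matrix.one_apply]
      by_cases h : a = b
      · simp [h]
      · rw [if_neg h, if_neg (fun hh => h (Subtype.ext hh))]
  | succ t ih =>
    obtain ⟨ih1, ih2⟩ := ih
    refine ⟨fun E' hE' => ?_, fun b => ?_⟩
    · rw [pow_succ, Matrix.mul_apply]
      refine Finset.sum_eq_zero fun k _ => ?_
      by_cases hk : k ∈ realizations d
      · rw [kernel_eq_zero_of_not_mem hk hE', mul_zero]
      · rw [ih1 k hk, zero_mul]
    · rw [pow_succ, pow_succ, Matrix.mul_apply, Matrix.mul_apply]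
      have h1 : ∑ k : Finset (Edge n), (kernel n ^ t) a.1 k * kernel n k b.1 =
          ∑ k ∈ realizations d, (kernel n ^ t) a.1 k * kernel n k b.1 := by
        symm
        refine Finset.sum_subset (Finset.subset_univ _) fun k _ hk => ?_
        rw [ih1 k hk, zero_mul]
      rw [h1, ← Finset.sum_coe_sort (realizations d)
        (fun k => (kernel n ^ t) a.1 k * kernel n k b.1)]
      refine Finset.sum_congr rfl fun k _ => ?_
      rw [ih2 k]
      rfl

/-- Numerical part: with `γ = 1 / (24 n² C(n,4))` and `t = 2 n⁸`, `N (1 - γ)^t ≤ 1/4`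
whenever `N ≤ 2 ^ (n²)`. -/
lemma numeric_bound (hn : 4 ≤ n) (N : ℝ) (hN : N ≤ (2 : ℝ) ^ (n ^ 2)) :
    N * (1 - 1 / (24 * (n : ℝ) ^ 2 * (n.choose 4 : ℝ))) ^ (2 * n ^ 8) ≤ 1 / 4 := by
  have hn4 : (4 : ℝ) ≤ (n : ℝ) := by exact_mod_cast hn
  have hn0 : (0 : ℝ) < (n : ℝ) := by linarith
  have hC : (0 : ℝ) < (n.choose 4 : ℝ) := by exact_mod_cast Nat.choose_pos hn
  have hCle : (n.choose 4 : ℝ) ≤ (n : ℝ) ^ 4 / 24 := by
    have := Nat.choose_le_pow_div (α := ℝ) 4 n
    simpa [Nat.factorial] using this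
  set γ : ℝ := 1 / (24 * (n : ℝ) ^ 2 * (n.choose 4 : ℝ)) with hγ
  have hD : (0 : ℝ) < 24 * (n : ℝ) ^ 2 * (n.choose 4 : ℝ) := by positivity
  have hγpos : 0 < γ := by rw [hγ]; positivity
  have hD1 : (1 : ℝ) ≤ 24 * (n : ℝ) ^ 2 * (n.choose 4 : ℝ) := by
    have h1 : (1 : ℝ) ≤ (n.choose 4 : ℝ) := by exact_mod_cast Nat.choose_pos hn
    have h2 : (1 : ℝ) ≤ (n : ℝ) ^ 2 := by nlinarith
    nlinarith
  have hγ1 : γ ≤ 1 := by
    rw [hγ, div_le_one hD]; exact hD1
  -- γ * t ≥ 2 n²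
  have hγt : 2 * (n : ℝ) ^ 2 ≤ γ * ((2 * n ^ 8 : ℕ) : ℝ) := by
    have hDle : 24 * (n : ℝ) ^ 2 * (n.choose 4 : ℝ) ≤ (n : ℝ) ^ 6 := by
      have : 24 * (n : ℝ) ^ 2 * (n.choose 4 : ℝ) ≤ 24 * (n : ℝ) ^ 2 * ((n : ℝ) ^ 4 / 24) :=
        mul_le_mul_of_nonneg_left hCle (by positivity)
      calc 24 * (n : ℝ) ^ 2 * (n.choose 4 : ℝ) ≤ 24 * (n : ℝ) ^ 2 * ((n : ℝ) ^ 4 / 24) := this
        _ = (n : ℝ) ^ 6 := by ring
    rw [hγ]
    push_cast
    rw [div_mul_eq_mul_div, one_mul, le_div_iff₀ hD]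
    calc 2 * (n : ℝ) ^ 2 * (24 * (n : ℝ) ^ 2 * (n.choose 4 : ℝ))
        ≤ 2 * (n : ℝ) ^ 2 * (n : ℝ) ^ 6 := mul_le_mul_of_nonneg_left hDle (by positivity)
      _ = 2 * (n : ℝ) ^ 8 := by ring
  -- (1 - γ)^t ≤ exp (-(γ t))
  have h1 : (1 - γ) ^ (2 * n ^ 8) ≤ Real.exp (-(2 * (n : ℝ) ^ 2)) := by
    have hle : 1 - γ ≤ Real.exp (-γ) := by
      have := Real.add_one_le_exp (-γ); linarith
    calc (1 - γ) ^ (2 * n ^ 8) ≤ Real.exp (-γ) ^ (2 * n ^ 8) :=
          pow_le_pow_left₀ (by linarith) hle _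
      _ = Real.exp (((2 * n ^ 8 : ℕ) : ℝ) * (-γ)) := (Real.exp_nat_mul _ _).symm
      _ ≤ Real.exp (-(2 * (n : ℝ) ^ 2)) := by
          apply Real.exp_le_exp.2
          nlinarith [hγt]
  -- N ≤ exp (n²)
  have h2 : (2 : ℝ) ^ (n ^ 2) ≤ Real.exp ((n : ℝ) ^ 2) := by
    have h2e : (2 : ℝ) ≤ Real.exp 1 := by
      have := Real.add_one_le_exp (1 : ℝ); linarith
    calc (2 : ℝ) ^ (n ^ 2) ≤ Real.exp 1 ^ (n ^ 2) := pow_le_pow_left₀ (by norm_num) h2e _
      _ = Real.exp (((n ^ 2 : ℕ) : ℝ) * 1) := (Real.exp_nat_mul _ _).symm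
      _ = Real.exp ((n : ℝ) ^ 2) := by push_cast; rw [mul_one]
  have hpow_nonneg : 0 ≤ (1 - γ) ^ (2 * n ^ 8) := pow_nonneg (by linarith) _
  have hexp : Real.exp ((n : ℝ) ^ 2) * Real.exp (-(2 * (n : ℝ) ^ 2)) ≤ 1 / 4 := by
    rw [← Real.exp_add]
    have hx : (16 : ℝ) ≤ (n : ℝ) ^ 2 := by nlinarith
    have e1 : (n : ℝ) ^ 2 + -(2 * (n : ℝ) ^ 2) = -((n : ℝ) ^ 2) := by ring
    rw [e1, Real.exp_neg]
    have h3 : (4 : ℝ) ≤ Real.exp ((n : ℝ) ^ 2) := by
      have := Real.add_one_le_exp ((n : ℝ) ^ 2); linarith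
    rw [inv_eq_one_div]
    exact one_div_le_one_div_of_le (by norm_num) h3
  calc N * (1 - γ) ^ (2 * n ^ 8) ≤ (2 : ℝ) ^ (n ^ 2) * (1 - γ) ^ (2 * n ^ 8) :=
        mul_le_mul_of_nonneg_right hN hpow_nonneg
    _ ≤ Real.exp ((n : ℝ) ^ 2) * Real.exp (-(2 * (n : ℝ) ^ 2)) :=
        mul_le_mul h2 h1 hpow_nonneg (Real.exp_pos _).le
    _ ≤ 1 / 4 := hexp

/-- The number of graphs on `n` vertices is at most `2 ^ (n²)`. -/
lemma card_realizations_le (hn : 4 ≤ n) (d : Fin n → ℕ) :
    ((realizations d).card : ℝ) ≤ (2 : ℝ) ^ (n ^ 2) := by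
  have h1 : (realizations d).card ≤ Fintype.card (Finset (Edge n)) := Finset.card_le_univ _
  have h2 : Fintype.card (Finset (Edge n)) = 2 ^ Fintype.card (Edge n) := Fintype.card_finset
  have h3 : Fintype.card (Edge n) ≤ Fintype.card (Sym2 (Fin n)) := Fintype.card_subtype_le _
  have h4 : Fintype.card (Sym2 (Fin n)) = (n + 1).choose 2 := by
    rw [Sym2.card, Fintype.card_fin]
  have h5 : (n + 1).choose 2 ≤ n ^ 2 := by
    rw [Nat.choose_two_right]
    have : (n + 1) * (n + 1 - 1) ≤ 2 * n ^ 2 := by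
      simp only [Nat.add_sub_cancel]
      nlinarith
    omega
  have h6 : (realizations d).card ≤ 2 ^ (n ^ 2) := by
    calc (realizations d).card ≤ 2 ^ Fintype.card (Edge n) := h2 ▸ h1
      _ ≤ 2 ^ (n ^ 2) := Nat.pow_le_pow_right (by norm_num) (by omega)
  exact_mod_cast h6

/-- The total variation sum, restricted to the realizations. -/
lemma tv_sum_eq (d : Fin n → ℕ) {G : Finset (Edge n)} (hG : G ∈ realizations d) (t : ℕ) :
    ∑ G' : Finset (Edge n), |(kernel n ^ t) G G' - unifOn (realizations d) G'| =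
      ∑ b : ↥(realizations d), |(Kr d ^ t) ⟨G, hG⟩ b - 1 / ((realizations d).card : ℝ)| := by
  obtain ⟨hz, hr⟩ := pow_restrict d t ⟨G, hG⟩
  have h1 : ∑ G' : Finset (Edge n), |(kernel n ^ t) G G' - unifOn (realizations d) G'| =
      ∑ G' ∈ realizations d, |(kernel n ^ t) G G' - unifOn (realizations d) G'| := by
    symm
    refine Finset.sum_subset (Finset.subset_univ _) fun G' _ hG' => ?_
    rw [hz G' hG', unifOn_apply, if_neg hG', sub_zero, abs_zero]
  rw [h1, ← Finset.sum_coe_sort (realizations d)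
    (fun G' => |(kernel n ^ t) G G' - unifOn (realizations d) G'|)]
  refine Finset.sum_congr rfl fun b _ => ?_
  rw [← hr b, unifOn_apply, if_pos b.2]

/-- **Poincaré ⇒ mixing** for the lazy switch chain: part 2 of the frozen statement S0453
implies part 1. -/
theorem mixing_of_poincare (n : ℕ) (hn : 4 ≤ n) (d : Fin n → ℕ)
    (hd : (realizations d).Nonempty)
    (hP : ∀ f : Finset (Edge n) → ℝ,
        ((realizations d).card : ℝ) * (∑ G ∈ realizations d, f G ^ 2) -
            (∑ G ∈ realizations d, f G) ^ 2 ≤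
          24 * (n : ℝ) ^ 2 * (n.choose 4 : ℝ) * (realizations d).card *
            ∑ G ∈ realizations d,
              f G * (f G - ∑ G' ∈ realizations d, kernel n G G' * f G')) :
    ∃ t : ℕ, t ≤ 2 * n ^ 8 ∧ ∀ G ∈ realizations d,
        tvDist (fun G' => (kernel n ^ t) G G') (unifOn (realizations d)) ≤ 1 / 4 := by
  classical
  refine ⟨2 * n ^ 8, le_rfl, fun G hG => ?_⟩
  have hNpos : (0 : ℝ) < ((realizations d).card : ℝ) := by exact_mod_cast Finset.card_pos.2 hd
  have hC : (0 : ℝ) < (n.choose 4 : ℝ) := by exact_mod_cast Nat.choose_pos hn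
  have hn0 : (0 : ℝ) < (n : ℝ) := by
    have : (4 : ℝ) ≤ (n : ℝ) := by exact_mod_cast hn
    linarith
  set D : ℝ := 24 * (n : ℝ) ^ 2 * (n.choose 4 : ℝ) with hD
  have hDpos : 0 < D := by positivity
  have hD1 : 1 ≤ D := by
    have h1 : (1 : ℝ) ≤ (n.choose 4 : ℝ) := by exact_mod_cast Nat.choose_pos hn
    have h2 : (1 : ℝ) ≤ (n : ℝ) ^ 2 := by
      have : (4 : ℝ) ≤ (n : ℝ) := by exact_mod_cast hn
      nlinarith
    rw [hD]; nlinarith
  -- hypotheses of the abstract lemma for the restricted kernel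
  have hrow : ∀ a : ↥(realizations d), ∑ b : ↥(realizations d), Kr d a b = 1 := by
    intro a
    have := kernel_row_sum_realizations hn a.2
    rw [← this]
    exact Finset.sum_coe_sort (realizations d) (fun E' => kernel n a.1 E')
  have hPr : ∀ g : ↥(realizations d) → ℝ, ∑ a, g a = 0 →
      (1 / D) * ∑ a, g a ^ 2 ≤ ∑ a, g a * (g a - ∑ b, Kr d a b * g b) := by
    intro g hg
    set f : Finset (Edge n) → ℝ := fun E => if h : E ∈ (realizations d) then g ⟨E, h⟩ else 0 with hf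
    have hfa : ∀ a : ↥(realizations d), f a.1 = g a := by
      intro a; simp [hf]
    have e1 : ∑ G ∈ (realizations d), f G ^ 2 = ∑ a : ↥(realizations d), g a ^ 2 := by
      rw [← Finset.sum_coe_sort (realizations d) (fun G => f G ^ 2)]
      exact Finset.sum_congr rfl fun a _ => by rw [hfa a]
    have e2 : ∑ G ∈ (realizations d), f G = 0 := by
      rw [← Finset.sum_coe_sort (realizations d) f, ← hg]
      exact Finset.sum_congr rfl fun a _ => hfa a
    have e3 : ∑ G ∈ (realizations d), f G * (f G - ∑ G' ∈ (realizations d), kernel n G G' * f G') =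
        ∑ a : ↥(realizations d), g a * (g a - ∑ b, Kr d a b * g b) := by
      rw [← Finset.sum_coe_sort (realizations d) (fun G => f G * (f G - ∑ G' ∈ (realizations d), kernel n G G' * f G'))]
      refine Finset.sum_congr rfl fun a _ => ?_
      rw [hfa a, ← Finset.sum_coe_sort (realizations d) (fun G' => kernel n a.1 G' * f G')]
      congr 2
      exact Finset.sum_congr rfl fun b _ => by rw [hfa b]; rfl
    have h := hP f
    rw [e1, e2, e3] at h
    have h' : ((realizations d).card : ℝ) * ∑ a : ↥(realizations d), g a ^ 2 ≤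
        ((realizations d).card : ℝ) * (D * ∑ a : ↥(realizations d), g a * (g a - ∑ b, Kr d a b * g b)) := by
      have : ((realizations d).card : ℝ) * (D * ∑ a : ↥(realizations d), g a * (g a - ∑ b, Kr d a b * g b)) =
          D * ((realizations d).card : ℝ) * ∑ a : ↥(realizations d), g a * (g a - ∑ b, Kr d a b * g b) := by ring
      rw [this]
      linarith
    have h'' := le_of_mul_le_mul_left h' hNpos
    rw [div_mul_eq_mul_div, one_mul, div_le_iff₀ hDpos]
    linarith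
  have key := l2_mixing (Kr d) (fun a b => kernel_symm a.1 b.1) (fun a b => kernel_nonneg a.1 b.1)
    hrow (fun a => kernel_diag a.1) (1 / D) (by rw [div_le_one hDpos]; exact hD1) hPr
    (2 * n ^ 8) ⟨G, hG⟩
  rw [Fintype.card_coe] at key
  have hnum := numeric_bound hn ((realizations d).card : ℝ) (card_realizations_le hn d)
  have hsq : (∑ b : ↥(realizations d),
      |(Kr d ^ (2 * n ^ 8)) ⟨G, hG⟩ b - 1 / ((realizations d).card : ℝ)|) ^ 2 ≤ 1 / 4 :=
    le_trans key hnum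
  have hnn : 0 ≤ ∑ b : ↥(realizations d),
      |(Kr d ^ (2 * n ^ 8)) ⟨G, hG⟩ b - 1 / ((realizations d).card : ℝ)| :=
    Finset.sum_nonneg fun b _ => abs_nonneg _
  have hhalf : ∑ b : ↥(realizations d),
      |(Kr d ^ (2 * n ^ 8)) ⟨G, hG⟩ b - 1 / ((realizations d).card : ℝ)| ≤ 1 / 2 := by
    nlinarith
  rw [tvDist_def, tv_sum_eq d hG (2 * n ^ 8)]
  linarith

/-- **S0453 from its Poincaré part.**  The full frozen statement follows from part 2. -/
theorem result_of_poincare (n : ℕ) (hn : 4 ≤ n) (d : Fin n → ℕ)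
    (hd : (realizations d).Nonempty)
    (hP : ∀ f : Finset (Edge n) → ℝ,
        ((realizations d).card : ℝ) * (∑ G ∈ realizations d, f G ^ 2) -
            (∑ G ∈ realizations d, f G) ^ 2 ≤
          24 * (n : ℝ) ^ 2 * (n.choose 4 : ℝ) * (realizations d).card *
            ∑ G ∈ realizations d,
              f G * (f G - ∑ G' ∈ realizations d, kernel n G G' * f G')) :
    (∃ t : ℕ, t ≤ 2 * n ^ 8 ∧ ∀ G ∈ realizations d,
        tvDist (fun G' => (kernel n ^ t) G G') (unifOn (realizations d)) ≤ 1 / 4) ∧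
      ∀ f : Finset (Edge n) → ℝ,
        ((realizations d).card : ℝ) * (∑ G ∈ realizations d, f G ^ 2) -
            (∑ G ∈ realizations d, f G) ^ 2 ≤
          24 * (n : ℝ) ^ 2 * (n.choose 4 : ℝ) * (realizations d).card *
            ∑ G ∈ realizations d,
              f G * (f G - ∑ G' ∈ realizations d, kernel n G G' * f G') :=
  ⟨mixing_of_poincare n hn d hd hP, hP⟩

end Crest.Agent.Helper65.Switch
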